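import Vale.Agent.P030.H954.Dilog

/-!
# P030, row P3: functional equations of the polylogarithmic functions of the list

`lc = log 2`, `Jg z = ∫_0^z (Lg + lc)/(1+s) ds` on `ℂ \ [1,∞)`, special values, inversion, the
connection with `u = ∞` (`v = 1/u`) and with `u = 1` (`t = (u-1)/(u+1)`).
-/

open Set Filter Topology Metric

noncomputable section

namespace Vale.Agent.P030.H954

/-! ### uniqueness of primitives -/

theorem eqOn_of_hasDeriv {U : Set ℂ} (ho : IsOpen U) (hc : IsPreconnected U) {f g f' : ℂ → ℂ}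
    (hf : ∀ z ∈ U, HasDerivAt f (f' z) z) (hg : ∀ z ∈ U, HasDerivAt g (f' z) z) {z0 : ℂ}
    (hz0 : z0 ∈ U) (h0 : f z0 = g z0) : ∀ z ∈ U, f z = g z := fun _ hz =>
  IsOpen.eqOn_of_deriv_eq ho hc
    (fun w hw => (hf w hw).differentiableAt.differentiableWithinAt)
    (fun w hw => (hg w hw).differentiableAt.differentiableWithinAt)
    (fun w hw => by rw [(hf w hw).deriv, (hg w hw).deriv]) hz0 h0 hz

theorem eqOn_of_hasDeriv_lim {U : Set ℂ} (ho : IsOpen U) (hc : IsPreconnected U) {f g f' : ℂ → ℂ}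
    (hf : ∀ z ∈ U, HasDerivAt f (f' z) z) (hg : ∀ z ∈ U, HasDerivAt g (f' z) z) {F : Filter ℂ}
    [F.NeBot] (hF : ∀ᶠ z in F, z ∈ U) (h0 : Tendsto (fun z => f z - g z) F (𝓝 0)) :
    ∀ z ∈ U, f z = g z := by
  obtain ⟨z0, hz0⟩ := hF.exists
  have h1 : ∀ z ∈ U, f z - g z = f z0 - g z0 := by
    refine eqOn_of_hasDeriv (f := fun z => f z - g z) (g := fun _ => f z0 - g z0)
      (f' := fun _ => 0) ho hc (fun z hz => ?_) (fun z _ => hasDerivAt_const _ _) hz0 rfl
    have := (hf z hz).sub (hg z hz)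
    rwa [sub_self] at this
  have h2 : Tendsto (fun z => f z - g z) F (𝓝 (f z0 - g z0)) := by
    refine tendsto_const_nhds.congr' ?_
    filter_upwards [hF] with z hz
    exact (h1 z hz).symm
  have h3 := tendsto_nhds_unique h0 h2
  intro z hz
  have := h1 z hz
  rw [← h3] at this
  exact sub_eq_zero.1 this

/-! ### domains -/

/-- `ℂ \ [0,∞)` -/
def V : Set ℂ := {v | -v ∈ Complex.slitPlane}

theorem mem_V {v : ℂ} : v ∈ V ↔ v.re < 0 ∨ v.im ≠ 0 := by
  simp only [V, Set.mem_ofPred_eq, Complex.mem_slitPlane_iff, Complex.neg_re, Complex.neg_im,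
    neg_pos, ne_eq, neg_eq_zero]

theorem isOpen_V : IsOpen V := Complex.isOpen_slitPlane.preimage (by fun_prop)

theorem V_ne {v : ℂ} (hv : v ∈ V) : v ≠ 0 := by
  rintro rfl
  simp [V] at hv

theorem V_sub_Om {v : ℂ} (hv : v ∈ V) : v ∈ Om := by
  rw [mem_V] at hv
  rw [mem_Om]
  rcases hv with h | h
  · left; linarith
  · right; exact h

theorem inv_mem_V {v : ℂ} (hv : v ∈ V) : v⁻¹ ∈ V := by
  have h0 := V_ne hv
  have hn : 0 < Complex.normSq v := Complex.normSq_pos.2 h0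
  rw [mem_V] at hv ⊢
  rw [Complex.inv_re, Complex.inv_im]
  rcases hv with h | h
  · left; exact div_neg_of_neg_of_pos h hn
  · right; exact div_ne_zero (neg_ne_zero.2 h) hn.ne'

theorem neg_one_mem_V : (-1:ℂ) ∈ V := by simp [mem_V]

theorem starConvex_V {x : ℝ} (hx : x < 0) : StarConvex ℝ (x:ℂ) V := by
  intro v hv a b ha hb hab
  rw [mem_V] at hv ⊢
  simp only [Complex.add_re, Complex.real_smul, Complex.mul_re, Complex.ofReal_re,
    Complex.ofReal_im, zero_mul, sub_zero, Complex.add_im, Complex.mul_im, mul_zero, add_zero,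
    zero_add]
  rcases hb.eq_or_lt with h | h
  · left; rw [← h]
    have : a = 1 := by linarith
    rw [this]; linarith
  · rcases hv with h1 | h1
    · left; nlinarith [mul_nonneg ha (neg_nonneg.2 hx.le), mul_pos h (neg_pos.2 h1)]
    · right; exact mul_ne_zero h.ne' h1

theorem isPreconnected_V : IsPreconnected V :=
  ((starConvex_V (x := -1) (by norm_num)).isPathConnected
    (by simpa using neg_one_mem_V)).isConnected.isPreconnected

/-- `ℂ \ ((-∞,-1] ∪ [0,∞))` -/
def W : Set ℂ := {v | -v ∈ Complex.slitPlane ∧ 1 + v ∈ Complex.slitPlane}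

theorem mem_W {v : ℂ} : v ∈ W ↔ (-1 < v.re ∧ v.re < 0) ∨ v.im ≠ 0 := by
  simp only [W, Set.mem_ofPred_eq, Complex.mem_slitPlane_iff, Complex.neg_re, Complex.neg_im,
    neg_pos, ne_eq, neg_eq_zero, Complex.add_re, Complex.one_re, Complex.add_im, Complex.one_im,
    zero_add]
  constructor
  · rintro ⟨h1 | h1, h2 | h2⟩
    · left; exact ⟨by linarith, h1⟩
    · right; exact h2
    · right; exact h1
    · right; exact h2
  · rintro (⟨h1, h2⟩ | h)
    · exact ⟨Or.inl h2, Or.inl (by linarith)⟩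
    · exact ⟨Or.inr h, Or.inr h⟩

theorem isOpen_W : IsOpen W :=
  (Complex.isOpen_slitPlane.preimage (by fun_prop)).inter
    (Complex.isOpen_slitPlane.preimage (by fun_prop))

theorem W_sub_V {v : ℂ} (hv : v ∈ W) : v ∈ V := hv.1

theorem starConvex_W {x : ℝ} (hx : x < 0) (hx1 : -1 < x) : StarConvex ℝ (x:ℂ) W := by
  intro v hv a b ha hb hab
  rw [mem_W] at hv ⊢
  simp only [Complex.add_re, Complex.real_smul, Complex.mul_re, Complex.ofReal_re,
    Complex.ofReal_im, zero_mul, sub_zero, Complex.add_im, Complex.mul_im, mul_zero, add_zero,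
    zero_add]
  rcases hb.eq_or_lt with h | h
  · left; rw [← h]
    have : a = 1 := by linarith
    rw [this]; constructor <;> linarith
  · rcases hv with ⟨h1, h2⟩ | h1
    · left
      constructor
      · nlinarith [mul_nonneg ha (by linarith : (0:ℝ) ≤ x + 1),
          mul_pos h (by linarith : (0:ℝ) < v.re + 1)]
      · nlinarith [mul_nonneg ha (neg_nonneg.2 hx.le), mul_pos h (neg_pos.2 h2)]
    · right; exact mul_ne_zero h.ne' h1

theorem half_mem_W : ((-1/2:ℝ):ℂ) ∈ W := by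
  rw [mem_W]; left
  rw [Complex.ofReal_re]; constructor <;> norm_num

theorem isPreconnected_W : IsPreconnected W :=
  ((starConvex_W (x := -1/2) (by norm_num) (by norm_num)).isPathConnected
    half_mem_W).isConnected.isPreconnected

theorem mem_W_of_norm {v : ℂ} (hv : v ∈ V) (h1 : ‖v‖ < 1) : v ∈ W := by
  rw [mem_V] at hv
  rw [mem_W]
  rcases hv with h | h
  · left
    refine ⟨?_, h⟩
    have := Complex.abs_re_le_norm v
    have := (abs_le.1 this).1
    linarith
  · right; exact h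

/-! ### `log 2`, `Jg`, `f6`, `f7` -/

/-- `log 2` -/
def lc : ℂ := (Real.log 2 : ℂ)

theorem lc_eq : lc = Complex.log 2 := by
  rw [lc, Complex.ofReal_log (by norm_num)]
  norm_num

theorem neg_one_mem_Om : (-1:ℂ) ∈ Om := V_sub_Om neg_one_mem_V

@[simp] theorem Lg_neg_one : Lg (-1) = -lc := by
  rw [Lg, lc_eq]; norm_num

/-- `(Lg z + lc) / (1 + z)` -/
def qJ : ℂ → ℂ := dslope Lg (-1)

theorem qJ_of_ne {z : ℂ} (hz : z ≠ -1) : qJ z = (Lg z + lc) / (1 + z) := by
  rw [qJ, dslope_of_ne _ hz, slope_def_field, Lg_neg_one, sub_neg_eq_add, sub_neg_eq_add, add_comm z]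

theorem mul_qJ (z : ℂ) : (1 + z) * qJ z = Lg z + lc := by
  by_cases hz : z = -1
  · subst hz; simp
  · rw [qJ_of_ne hz]
    have : (1:ℂ) + z ≠ 0 := fun h => hz (by linear_combination h)
    field_simp

theorem diff_qJ : DifferentiableOn ℂ qJ Om :=
  (Complex.differentiableOn_dslope (isOpen_Om.mem_nhds neg_one_mem_Om)).2 diff_Lg

/-- `∫_0^z (Lg + lc)/(1+s) ds` -/
def Jg (z : ℂ) : ℂ := ∫ s in (0:ℝ)..1, qJ ((s:ℂ) * z) * z

@[simp] theorem Jg_zero : Jg 0 = 0 := by simp [Jg]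

theorem hasDerivAt_Jg' {z : ℂ} (hz : z ∈ Om) : HasDerivAt Jg (qJ z) z :=
  hasDerivAt_starPrim isOpen_Om star_Om diff_qJ hz

theorem hasDerivAt_Jg {z : ℂ} (hz : z ∈ Om) (h0 : z ≠ -1) :
    HasDerivAt Jg ((Lg z + lc) / (1 + z)) z := by
  rw [← qJ_of_ne h0]; exact hasDerivAt_Jg' hz

/-- the function `f6 = lc Lg / 2 + Jg` -/
def g6 (z : ℂ) : ℂ := lc / 2 * Lg z + Jg z

/-- the function `f7 = Lg (Lg + lc) / 2` -/
def g7 (z : ℂ) : ℂ := Lg z * (Lg z + lc) / 2

/-! ### special values -/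

theorem Lg_add_neg {z : ℂ} (hz : ‖z‖ < 1) : Lg z + Lg (-z) = Lg (z ^ 2) := by
  have hb : ∀ w ∈ ball (0:ℂ) 1, w ∈ Om ∧ -w ∈ Om ∧ w ^ 2 ∈ Om := by
    intro w hw
    rw [mem_ball_zero_iff] at hw
    refine ⟨ball_sub_Om (by rwa [mem_ball_zero_iff]), ball_sub_Om (by rwa [mem_ball_zero_iff, norm_neg]),
      ball_sub_Om ?_⟩
    rw [mem_ball_zero_iff, norm_pow]
    exact pow_lt_one₀ (norm_nonneg _) hw (by norm_num)
  refine eqOn_of_hasDeriv (f := fun z => Lg z + Lg (-z)) (g := fun z => Lg (z ^ 2))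
    (f' := fun z => 1 / (1 - z) - 1 / (1 + z)) isOpen_ball (convex_ball (0:ℂ) 1).isPreconnected
    (fun w hw => ?_) (fun w hw => ?_) (mem_ball_self one_pos) (by simp) z
    (by rwa [mem_ball_zero_iff])
  · have h1 := hasDerivAt_Lg (hb w hw).1
    have h2 := (hasDerivAt_Lg (hb w hw).2.1).comp w (hasDerivAt_neg w)
    refine (h1.add h2).congr_deriv ?_
    rw [sub_neg_eq_add]; ring
  · have h2 := (hasDerivAt_Lg (hb w hw).2.2).comp w (hasDerivAt_pow 2 w)
    refine h2.congr_deriv ?_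
    have e1 := one_sub_ne (hb w hw).1
    have e2 := one_sub_ne (hb w hw).2.1
    have e3 := one_sub_ne (hb w hw).2.2
    rw [sub_neg_eq_add] at e2
    push_cast
    field_simp
    ring

theorem Li2_add_neg {z : ℂ} (hz : ‖z‖ < 1) : Li2 z + Li2 (-z) = Li2 (z ^ 2) / 2 := by
  have hb : ∀ w ∈ ball (0:ℂ) 1, w ∈ Om ∧ -w ∈ Om ∧ w ^ 2 ∈ Om := by
    intro w hw
    rw [mem_ball_zero_iff] at hw
    refine ⟨ball_sub_Om (by rwa [mem_ball_zero_iff]), ball_sub_Om (by rwa [mem_ball_zero_iff, norm_neg]),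
      ball_sub_Om ?_⟩
    rw [mem_ball_zero_iff, norm_pow]
    exact pow_lt_one₀ (norm_nonneg _) hw (by norm_num)
  refine eqOn_of_hasDeriv (f := fun z => Li2 z + Li2 (-z)) (g := fun z => Li2 (z ^ 2) / 2)
    (f' := fun z => qL z - qL (-z)) isOpen_ball (convex_ball (0:ℂ) 1).isPreconnected
    (fun w hw => ?_) (fun w hw => ?_) (mem_ball_self one_pos) (by simp) z
    (by rwa [mem_ball_zero_iff])
  · have h1 := hasDerivAt_Li2' (hb w hw).1
    have h2 := (hasDerivAt_Li2' (hb w hw).2.1).comp w (hasDerivAt_neg w)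
    refine (h1.add h2).congr_deriv ?_
    ring
  · have h2 := ((hasDerivAt_Li2' (hb w hw).2.2).comp w (hasDerivAt_pow 2 w)).div_const 2
    refine h2.congr_deriv ?_
    by_cases h0 : w = 0
    · subst h0; simp
    · have h3 := Lg_add_neg (mem_ball_zero_iff.1 hw)
      rw [qL_of_ne h0, qL_of_ne (neg_ne_zero.2 h0), qL_of_ne (pow_ne_zero 2 h0), ← h3]
      push_cast
      field_simp
      ring

/-- `Li2 (-1) = - π²/12` -/
theorem Li2_neg_one : Li2 (-1) = -((Real.pi:ℂ) ^ 2 / 12) := by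
  -- the limit `z → 1` inside the disc
  have hne : (𝓝[ball (0:ℂ) 1] (1:ℂ)).NeBot := by
    rw [← mem_closure_iff_nhdsWithin_neBot, closure_ball (0:ℂ) one_ne_zero]
    simp
  have h1 := tendsto_Li2_one
  have h2 : Tendsto (fun z : ℂ => z ^ 2) (𝓝[ball (0:ℂ) 1] 1) (𝓝[ball (0:ℂ) 1] 1) := by
    refine tendsto_nhdsWithin_iff.2 ⟨?_, ?_⟩
    · have : Tendsto (fun z : ℂ => z ^ 2) (𝓝 1) (𝓝 (1 ^ 2)) := (continuous_pow 2).tendsto 1
      rw [one_pow] at this
      exact this.mono_left nhdsWithin_le_nhds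
    · filter_upwards [self_mem_nhdsWithin] with z hz
      rw [mem_ball_zero_iff] at hz ⊢
      rw [norm_pow]
      exact pow_lt_one₀ (norm_nonneg _) hz (by norm_num)
  have h3 := h1.comp h2
  have h4 : Tendsto (fun z : ℂ => Li2 (-z)) (𝓝[ball (0:ℂ) 1] 1) (𝓝 (Li2 (-1))) := by
    have hc : ContinuousAt (fun z : ℂ => Li2 (-z)) 1 := by
      exact ContinuousAt.comp (g := Li2) (f := fun z : ℂ => -z)
        (hasDerivAt_Li2' neg_one_mem_Om).continuousAt continuousAt_neg
    exact hc.tendsto.mono_left nhdsWithin_le_nhds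
  have h5 : Tendsto (fun z : ℂ => Li2 (-z)) (𝓝[ball (0:ℂ) 1] 1)
      (𝓝 ((Real.pi:ℂ) ^ 2 / 6 / 2 - (Real.pi:ℂ) ^ 2 / 6)) := by
    refine ((h3.div_const 2).sub h1).congr' ?_
    filter_upwards [self_mem_nhdsWithin] with z hz
    have := Li2_add_neg (mem_ball_zero_iff.1 hz)
    simp only [Function.comp]
    linear_combination -this
  have := tendsto_nhds_unique h4 h5
  rw [this]; ring

/-! ### at infinity -/

theorem hasDerivAt_logneg {v : ℂ} (hv : v ∈ V) :
    HasDerivAt (fun v : ℂ => Complex.log (-v)) (1 / v) v := by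
  have h := (hasDerivAt_neg v).clog hv
  refine h.congr_deriv ?_
  have := V_ne hv
  field_simp

theorem hasDerivAt_inv' {v : ℂ} (hv : v ≠ 0) : HasDerivAt (fun v : ℂ => v⁻¹) (-(1 / v ^ 2)) v := by
  refine (hasDerivAt_inv hv).congr_deriv ?_
  rw [one_div]

/-- `L` at infinity -/
theorem Lg_inv {v : ℂ} (hv : v ∈ V) : Lg v⁻¹ = Complex.log (-v) + Lg v := by
  refine eqOn_of_hasDeriv (f := fun v => Lg v⁻¹) (g := fun v => Complex.log (-v) + Lg v)
    (f' := fun v => 1 / v + 1 / (1 - v)) isOpen_V isPreconnected_V (fun w hw => ?_)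
    (fun w hw => (hasDerivAt_logneg hw).add (hasDerivAt_Lg (V_sub_Om hw))) neg_one_mem_V ?_ v hv
  · have h0 := V_ne hw
    have h1 := (hasDerivAt_Lg (V_sub_Om (inv_mem_V hw))).comp w (hasDerivAt_inv' h0)
    refine h1.congr_deriv ?_
    have e1 := one_sub_ne (V_sub_Om (inv_mem_V hw))
    have e2 := one_sub_ne (V_sub_Om hw)
    have e3 : w - 1 ≠ 0 := fun h => e2 (by linear_combination -h)
    have e4 : (1:ℂ) - w⁻¹ = (w - 1) / w := by field_simp
    rw [e4]
    field_simp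
    ring
  · simp [Lg_neg_one]

/-- `Li2` at infinity -/
theorem Li2_inv {v : ℂ} (hv : v ∈ V) :
    Li2 v⁻¹ = -((Real.pi:ℂ) ^ 2 / 6) - Complex.log (-v) ^ 2 / 2 - Li2 v := by
  refine eqOn_of_hasDeriv (f := fun v => Li2 v⁻¹)
    (g := fun v => -((Real.pi:ℂ) ^ 2 / 6) - Complex.log (-v) ^ 2 / 2 - Li2 v)
    (f' := fun v => -(Complex.log (-v) + Lg v) / v) isOpen_V isPreconnected_V (fun w hw => ?_)
    (fun w hw => ?_) neg_one_mem_V ?_ v hv
  · have h0 := V_ne hw
    have h1 := (hasDerivAt_Li2 (V_sub_Om (inv_mem_V hw)) (inv_ne_zero h0)).comp w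
      (hasDerivAt_inv' h0)
    refine h1.congr_deriv ?_
    rw [Lg_inv hw]
    field_simp
  · have h0 := V_ne hw
    have h1 := (((hasDerivAt_logneg hw).pow 2).div_const 2).const_sub (-((Real.pi:ℂ) ^ 2 / 6))
    have h2 := h1.sub (hasDerivAt_Li2 (V_sub_Om hw) h0)
    refine h2.congr_deriv ?_
    push_cast
    field_simp
    ring
  · have : ((-1:ℂ))⁻¹ = -1 := by norm_num
    rw [this, Li2_neg_one]
    simp
    ring

/-! ### the reflection formula -/

theorem neg_mem_Om_of_W {v : ℂ} (hv : v ∈ W) : -v ∈ Om := by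
  show 1 - -v ∈ Complex.slitPlane
  rw [sub_neg_eq_add]; exact hv.2

theorem one_add_mem_Om {v : ℂ} (hv : v ∈ V) : 1 + v ∈ Om := by
  show 1 - (1 + v) ∈ Complex.slitPlane
  have : 1 - (1 + v) = -v := by ring
  rw [this]; exact hv

theorem one_add_ne {v : ℂ} (hv : v ∈ W) : 1 + v ≠ 0 := Complex.slitPlane_ne_zero hv.2

theorem hasDerivAt_lp {v : ℂ} (hv : 1 + v ∈ Complex.slitPlane) :
    HasDerivAt (fun v : ℂ => Complex.log (1 + v)) (1 / (1 + v)) v := by
  have h : HasDerivAt (fun v : ℂ => 1 + v) 1 v := by simpa using (hasDerivAt_id v).const_add 1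
  exact h.clog hv

/-- Euler's reflection formula, `z = -v` -/
theorem Li2_reflect {v : ℂ} (hv : v ∈ W) : Li2 (-v) + Li2 (1 + v) =
    (Real.pi:ℂ) ^ 2 / 6 - Complex.log (-v) * Complex.log (1 + v) := by
  -- the point `z0 = exp (i π / 3)`
  set z0 : ℂ := Complex.exp ((Real.pi / 3 : ℝ) * Complex.I) with hz0
  have hpi := Real.pi_pos
  have hz0' : z0 = 1 / 2 + (Real.sqrt 3 / 2 : ℝ) * Complex.I := by
    rw [hz0, Complex.exp_mul_I, ← Complex.ofReal_cos, ← Complex.ofReal_sin, Real.cos_pi_div_three,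
      Real.sin_pi_div_three]
    push_cast; ring
  have hz1 : (1:ℂ) - z0 = Complex.exp (-((Real.pi / 3 : ℝ) * Complex.I)) := by
    have e : -(((Real.pi / 3 : ℝ) : ℂ) * Complex.I) = ((-(Real.pi / 3) : ℝ) : ℂ) * Complex.I := by
      push_cast; ring
    rw [e, Complex.exp_mul_I, ← Complex.ofReal_cos, ← Complex.ofReal_sin, Real.cos_neg,
      Real.sin_neg, Real.cos_pi_div_three, Real.sin_pi_div_three, hz0']
    push_cast; ring
  have hz2 : (1:ℂ) - z0 = z0⁻¹ := by rw [hz1, hz0, Complex.exp_neg]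
  have him : z0.im ≠ 0 := by
    rw [hz0']
    have h3 : (0:ℝ) < Real.sqrt 3 := Real.sqrt_pos.2 (by norm_num)
    simp only [Complex.add_im, Complex.mul_im, Complex.ofReal_re, Complex.I_im, Complex.ofReal_im,
      Complex.I_re]
    norm_num
  have hW0 : -z0 ∈ W := by
    rw [mem_W]; right
    rw [Complex.neg_im]; exact neg_ne_zero.2 him
  have hV0 : z0 ∈ V := by
    rw [mem_V]; right; exact him
  have hl0 : Complex.log z0 = (Real.pi / 3 : ℝ) * Complex.I := by
    rw [hz0, Complex.log_exp]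
    · simp only [Complex.mul_im, Complex.ofReal_re, Complex.I_im, Complex.ofReal_im, Complex.I_re]
      linarith
    · simp only [Complex.mul_im, Complex.ofReal_re, Complex.I_im, Complex.ofReal_im, Complex.I_re]
      linarith
  have hl1 : Complex.log (1 - z0) = -((Real.pi / 3 : ℝ) * Complex.I) := by
    rw [hz1, Complex.log_exp]
    · simp only [Complex.neg_im, Complex.mul_im, Complex.ofReal_re, Complex.I_im,
        Complex.ofReal_im, Complex.I_re]
      linarith
    · simp only [Complex.neg_im, Complex.mul_im, Complex.ofReal_re, Complex.I_im,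
        Complex.ofReal_im, Complex.I_re]
      linarith
  have hl2 : Complex.log (-z0) = ((-(2 * Real.pi / 3) : ℝ) : ℂ) * Complex.I := by
    have e : -z0 = Complex.exp (((-(2 * Real.pi / 3) : ℝ) : ℂ) * Complex.I) := by
      have e1 : ((-(2 * Real.pi / 3) : ℝ) : ℂ) * Complex.I =
          ((Real.pi / 3 : ℝ) : ℂ) * Complex.I - (Real.pi : ℂ) * Complex.I := by push_cast; ring
      rw [e1, Complex.exp_sub, Complex.exp_pi_mul_I, ← hz0]
      ring
    rw [e, Complex.log_exp]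
    · simp only [Complex.mul_im, Complex.ofReal_re, Complex.I_im, Complex.ofReal_im, Complex.I_re]
      linarith
    · simp only [Complex.mul_im, Complex.ofReal_re, Complex.I_im, Complex.ofReal_im, Complex.I_re]
      linarith
  refine eqOn_of_hasDeriv (f := fun v => Li2 (-v) + Li2 (1 + v))
    (g := fun v => (Real.pi:ℂ) ^ 2 / 6 - Complex.log (-v) * Complex.log (1 + v))
    (f' := fun v => -(1 / v * Complex.log (1 + v)) - Complex.log (-v) * (1 / (1 + v)))
    isOpen_W isPreconnected_W (fun w hw => ?_) (fun w hw => ?_) hW0 ?_ v hv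
  · have h0 := V_ne hw.1
    have h1 := (hasDerivAt_Li2 (neg_mem_Om_of_W hw) (neg_ne_zero.2 h0)).comp w (hasDerivAt_neg w)
    have h3 : HasDerivAt (fun v : ℂ => 1 + v) 1 w := by simpa using (hasDerivAt_id w).const_add 1
    have h2 := (hasDerivAt_Li2 (one_add_mem_Om hw.1) (one_add_ne hw)).comp w h3
    refine (h1.add h2).congr_deriv ?_
    have e1 : Lg (-w) = -Complex.log (1 + w) := by rw [Lg, sub_neg_eq_add]
    have e2 : Lg (1 + w) = -Complex.log (-w) := by
      rw [Lg]; congr 2; ring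
    rw [e1, e2]
    have := one_add_ne hw
    field_simp
    ring
  · have h2 := ((hasDerivAt_logneg hw.1).mul (hasDerivAt_lp hw.2)).const_sub ((Real.pi:ℂ) ^ 2 / 6)
    refine h2.congr_deriv ?_
    ring
  · simp only [neg_neg]
    have e1 : (1:ℂ) + -z0 = z0⁻¹ := by rw [← sub_eq_add_neg, hz2]
    have e2 : Complex.log (1 + -z0) = -((Real.pi / 3 : ℝ) * Complex.I) := by
      rw [← sub_eq_add_neg, hl1]
    rw [e2, e1, Li2_inv hV0, hl2, hl0]
    have hI := Complex.I_sq
    push_cast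
    linear_combination (-(1:ℂ) / 3 * (Real.pi:ℂ) ^ 2) * hI

end Vale.Agent.P030.H954
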