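import Vale.Agent.P030.H954.PolyV

/-!
# P030: the polylogarithmic half of `AR.IsV`

`PV_at0 .. PV_at3` : the components `j < 6` of the fields `at0 .. at3` of `AR.IsV`.
-/

open Set Filter Topology Metric PowerSeries

noncomputable section

namespace Vale.Agent.P030.H954

open Vale.Agent.P030.T Vale.Agent.P030.H462

theorem PV_at0 {u : ℂ} (h1 : ‖u‖ < 1) (i j : Fin 8) (hj : (j:ℕ) < 6) :
    PV i u j = AR.gl0 (Complex.log u) u i j := by
  rw [gl0_low h1 i j hj, PV]

theorem evqA_eq (f : ℚ⟦X⟧) (t : ℂ) : H405.evq f t = AR.evq f t := (evq_eq f t).symm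

theorem PV_at1 {u : ℂ} (hu : u ∈ AR.Up) (h1 : ‖(u + 1) / (u - 1)‖ < 1) (i j : Fin 8)
    (hj : (j:ℕ) < 6) : PV i u j =
      AR.gl1 (Complex.log (-((u + 1) / (u - 1)))) ((u + 1) / (u - 1)) i j := by
  rw [gl1_low h1 i j hj, PV]
  have hO := up_mem_Om hu
  have hu' : 0 < u.im := hu
  have e0 : H405.wm ((u + 1) / (u - 1)) = u := H405.wm_wm (H405.ne_one_of_mem hO)
  have hm1 : u - 1 ≠ 0 := sub_ne_zero.2 (H405.ne_one_of_mem hO)
  have hm2 : 1 - u ≠ 0 := H405.one_sub_ne_zero hO
  set t := (u + 1) / (u - 1) with ht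
  have hLf : H405.Lf t = -(H405.l2 + H405.Lf u) := H405.Lf_wm hO
  -- signs of the imaginary parts
  have htim : t.im < 0 := by
    have e1 : t = 1 - 2 * (1 - u)⁻¹ := by rw [ht]; field_simp; ring
    have hn : 0 < Complex.normSq (1 - u) := Complex.normSq_pos.2 hm2
    have e2 : t.im = -(2 * (u.im / Complex.normSq (1 - u))) := by
      rw [e1]
      simp [Complex.inv_im]
    rw [e2]
    have := div_pos hu' hn
    linarith
  have hlogp : Complex.log (1 + u) = Complex.log (-t) + Complex.log (1 - u) := by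
    have e1 : 1 + u = (-t) * (1 - u) := by rw [ht]; field_simp; ring
    rw [e1]
    refine log_mul_ud ?_ ?_
    · rw [Complex.neg_im]; linarith
    · rw [Complex.sub_im, Complex.one_im]; linarith
  have hlp' : Complex.log (1 - u) = -H405.Lf u := by rw [H405.Lf, neg_neg]
  have hlog : Complex.log u = Complex.log (1 + t) + H405.Lf t + Real.pi * Complex.I := by
    have e1 : 1 + t = (-u) * (1 - t) := by rw [ht]; field_simp; ring
    have h2 : Complex.log (1 + t) = Complex.log ((1 - t) * (-u)) := by rw [e1, mul_comm]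
    rw [log_mul_ud (by rw [Complex.sub_im, Complex.one_im]; linarith)
      (by rw [Complex.neg_im]; linarith), log_neg_up hu'] at h2
    rw [h2, H405.Lf]; ring
  have hc3 := H405.Li_c1 h1
  have hc6 := H405.f6_c1 h1
  have hc7 := H405.f7_c1 h1
  rw [e0, evqA_eq, evqA_eq, evqA_eq, evq_neg, evq_neg, evq_neg, evq_w3 h1, evq_pm h1, evq_C] at hc3
  rw [e0, evqA_eq, evqA_eq, evqA_eq, evq_w4 h1, evq_neg, evq_neg, evq_hlgm h1, evq_C] at hc6
  rw [e0, evqA_eq, evqA_eq, evq_lgm2 h1, evq_hlgm h1] at hc7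
  have r1 : H405.Lf u = -H405.Lf t - H405.l2 := by rw [hLf]; ring
  have r2 : H405.Li u = -(H405.Lf t ^ 2 / 2 + H405.Jf t - H405.l2 * Complex.log (1 + t))
          - H405.l2 * (Complex.log (1 + t) + H405.Lf t) - Real.pi ^ 2 / 12 := by
    rw [hc3]; push_cast; ring
  have r3 : H405.f6 u = -H405.Li t - H405.Lf t ^ 2 / 2 - H405.l2 * (H405.Lf t / 2)
      - Real.pi ^ 2 / 12 := by
    rw [hc6]; push_cast; ring
  have r4 : Complex.log (1 + u) = Complex.log (-t) + H405.Lf t + H405.l2 := by
    rw [hlogp, hlp', hLf]; ring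
  rw [r1, r2, r3, hc7, hlog, r4]
  have r5 : Complex.log (-t) + H405.Lf t + H405.l2 + (-H405.Lf t - H405.l2) / 2 =
      Complex.log (-t) + H405.Lf t / 2 + H405.l2 / 2 := by ring
  have r6 : (-H405.Lf t - H405.l2) / 2 = -H405.Lf t / 2 - H405.l2 / 2 := by ring
  rw [r5, r6]

theorem PV_at2 {u : ℂ} (hu : u ∈ AR.Up) (h1 : 1 < ‖u‖) (i j : Fin 8)
    (hj : (j:ℕ) < 6) : PV i u j = AR.gl2 (Complex.log (-(1 / u))) (1 / u) i j := by
  have hu' : 0 < u.im := hu
  have hu0 : u ≠ 0 := by rintro rfl; simp at hu'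
  set t := 1 / u with ht
  have hti : t⁻¹ = u := by rw [ht, one_div, inv_inv]
  have h2 : ‖t‖ < 1 := by
    rw [ht, norm_div, norm_one]
    exact (div_lt_one (by linarith)).2 h1
  have hn : 0 < Complex.normSq u := Complex.normSq_pos.2 hu0
  have htim : t.im < 0 := by
    rw [ht, one_div, Complex.inv_im]
    exact div_neg_of_neg_of_pos (by linarith) hn
  have hs : -t ∈ Complex.slitPlane := by
    rw [Complex.mem_slitPlane_iff]; right
    rw [Complex.neg_im]; exact ne_of_gt (by linarith)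
  rw [gl2_low h2 i j hj, PV]
  have hL := Lf_inf hs h2
  have hLi := Li_inf hs h2
  have h6 := f6_inf hs h2
  have h7 := f7_inf hs h2
  have hn2 : ‖-t‖ < 1 := by rwa [norm_neg]
  rw [hti, ← evq_eq, evq_lgm h2] at hL
  rw [hti, ← evq_eq, evq_li2 h2] at hLi
  rw [hti] at h6 h7
  simp only [← evq_eq] at h6 h7
  rw [evq_lgm h2, evq_lgp h2, evq_li2 h2, evq_li2 hn2, evq_geoa' h2] at h6
  rw [evq_lgm h2] at h7
  have hlogt : Complex.log t = Complex.log (-t) - Real.pi * Complex.I := by
    have := log_neg_up (x := -t) (by rw [Complex.neg_im]; linarith)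
    rwa [neg_neg] at this
  have hts : t ∈ Complex.slitPlane := by
    rw [Complex.mem_slitPlane_iff]; right; exact ne_of_lt htim
  have hlog : Complex.log u = -Complex.log (-t) + Real.pi * Complex.I := by
    rw [← hti, Complex.log_inv _ (Complex.slitPlane_arg_ne_pi hts), hlogt]
    ring
  have hlp : Complex.log (1 + u) = Complex.log (1 + t) - Complex.log (-t)
      + Real.pi * Complex.I := by
    have e1 : 1 + u = u * (1 + t) := by rw [ht]; field_simp; ring
    rw [e1, log_mul_ud hu' (by rw [Complex.add_im, Complex.one_im]; linarith), hlog]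
    ring
  have r2 : H405.Li u = -H405.Li t - Complex.log (-t) ^ 2 / 2 - Real.pi ^ 2 / 6 := by
    rw [hLi]; ring
  have r3 : H405.f6 u = H405.Li (-t) - H405.Li t + (H405.Jf t - H405.l2 * Complex.log (1 + t))
          + Complex.log (-t) * Complex.log (1 + t) - Complex.log (-t) ^ 2 / 2
          + H405.l2 * (H405.Lf t / 2 + Complex.log (1 + t) - Complex.log (-t) / 2)
          - Real.pi ^ 2 / 4 := by
    rw [h6]; ring
  have r4 : H405.f7 u = H405.Lf t ^ 2 / 2 + Complex.log (-t) * H405.Lf t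
      + Complex.log (-t) ^ 2 / 2 + H405.l2 * (H405.Lf t / 2 + Complex.log (-t) / 2) := by
    rw [h7]; ring
  rw [r2, r3, r4, hlog, hlp, hL]
  have r5 : Complex.log (1 + t) - Complex.log (-t) + Real.pi * Complex.I
      + (Complex.log (-t) + H405.Lf t) / 2 =
      H405.Lf t / 2 + Complex.log (1 + t) - Complex.log (-t) / 2 + Real.pi * Complex.I := by ring
  have r6 : (Complex.log (-t) + H405.Lf t) / 2 = H405.Lf t / 2 + Complex.log (-t) / 2 := by ring
  have r7 : H405.Lf t + Complex.log (-t) = Complex.log (-t) + H405.Lf t := by ring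
  rw [r5, r6, r7]

theorem PV_at3 {u : ℂ} (hu : u ∈ AR.Up) (h1 : ‖(u - 1) / (u + 1)‖ < 1) (i j : Fin 8)
    (hj : (j:ℕ) < 6) : PV i u j =
      AR.gl3 (Complex.log (-((u - 1) / (u + 1)))) ((u - 1) / (u + 1)) i j := by
  have hu' : 0 < u.im := hu
  rw [gl3_low h1 i j hj, PV]
  have hp1 : u + 1 ≠ 0 := by
    intro h
    have := congrArg Complex.im h
    rw [Complex.add_im, Complex.one_im, Complex.zero_im] at this
    linarith
  set t := (u - 1) / (u + 1) with ht
  have ht1 : 1 - t ≠ 0 := by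
    intro h
    have : t = 1 := by linear_combination -h
    rw [this, norm_one] at h1
    exact lt_irrefl _ h1
  have hti : (1 + t) / (1 - t) = u := by
    have e1 : 1 - t = 2 / (u + 1) := by rw [ht]; field_simp; ring
    have e2 : 1 + t = 2 * u / (u + 1) := by rw [ht]; field_simp; ring
    rw [e1, e2]; field_simp
  have htim : 0 < t.im := by
    have e1 : t = 1 - 2 * (u + 1)⁻¹ := by rw [ht]; field_simp; ring
    have hn : 0 < Complex.normSq (u + 1) := Complex.normSq_pos.2 hp1
    have e2 : t.im = 2 * (u.im / Complex.normSq (u + 1)) := by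
      rw [e1]
      simp [Complex.inv_im]
      ring
    rw [e2]
    have := div_pos hu' hn
    linarith
  have hs : -t ∈ Complex.slitPlane := by
    rw [Complex.mem_slitPlane_iff]; right
    rw [Complex.neg_im]; exact ne_of_lt (by linarith)
  have hn2 : ‖-t‖ < 1 := by rwa [norm_neg]
  have hL := Lf_one hs h1
  have hLi := Li_one hs h1
  have h6 := f6_one hs h1
  have h7 := f7_one hs h1
  rw [hti] at hL hLi h6 h7
  simp only [← evq_eq] at hL hLi h6 h7
  rw [evq_lgm h1] at hL h6 h7
  rw [evq_li2 h1] at h6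
  rw [evq_lgm h1, evq_lgp h1, evq_li2 h1, evq_li2 hn2, evq_geo2' h1] at hLi
  have hlogm : Complex.log (1 - t) = -H405.Lf t := by rw [H405.Lf, neg_neg]
  have hlog : Complex.log u = Complex.log (1 + t) + H405.Lf t := by
    have e1 : 1 + t = u * (1 - t) := by rw [← hti]; field_simp
    have h2 : Complex.log (1 + t) = Complex.log (u * (1 - t)) := by rw [← e1]
    rw [log_mul_ud hu' (by rw [Complex.sub_im, Complex.one_im]; linarith), hlogm] at h2
    rw [h2]; ring
  have hlp : Complex.log (1 + u) = H405.Lf t + H405.l2 := by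
    have e1 : (2:ℂ) = (1 + u) * (1 - t) := by rw [ht]; field_simp; ring
    have h2 : Complex.log 2 = Complex.log ((1 + u) * (1 - t)) := by rw [← e1]
    rw [log_mul_ud (by rw [Complex.add_im, Complex.one_im]; linarith)
      (by rw [Complex.sub_im, Complex.one_im]; linarith), hlogm] at h2
    have h3 : H405.l2 = Complex.log 2 := lc_eq
    rw [h3, h2]; ring
  have r1 : H405.Lf u = -H405.Lf t - Complex.log (-t) - H405.l2 := by rw [hL]; ring
  have r2 : H405.Li u = H405.Li t - H405.Li (-t)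
          - (H405.Lf t ^ 2 / 2 + H405.Jf t - H405.l2 * Complex.log (1 + t))
          - Complex.log (-t) * (Complex.log (1 + t) + H405.Lf t)
          - H405.l2 * (Complex.log (1 + t) + H405.Lf t)
          + Real.pi ^ 2 / 6 := by
    rw [hLi]; ring
  have r3 : H405.f6 u = H405.Li t - H405.Lf t ^ 2 / 2 - Complex.log (-t) * H405.Lf t
      + H405.l2 * (H405.Lf t / 2 - Complex.log (-t) / 2)
          - H405.l2 * H405.Lf t + Real.pi ^ 2 / 12 := by
    rw [h6]; ring
  have r4 : H405.f7 u = H405.Lf t ^ 2 / 2 + Complex.log (-t) * H405.Lf t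
      + Complex.log (-t) ^ 2 / 2 + H405.l2 * (-H405.Lf t / 2 - Complex.log (-t) / 2)
          + H405.l2 * (H405.Lf t + Complex.log (-t)) := by
    rw [h7]; ring
  rw [r2, r3, r4, hlog, hlp, r1]
  have r5 : H405.Lf t + H405.l2 + (-H405.Lf t - Complex.log (-t) - H405.l2) / 2 =
      H405.Lf t / 2 - Complex.log (-t) / 2 + H405.l2 / 2 := by ring
  have r6 : (-H405.Lf t - Complex.log (-t) - H405.l2) / 2 =
      -H405.Lf t / 2 - Complex.log (-t) / 2 - H405.l2 / 2 := by ring
  rw [r5, r6]

end Vale.Agent.P030.H954
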