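import Vale.Agent.P030.H954.Func

/-!
# P030, row P3: the connection formulas of `Lg, Li2, g6, g7`

at `u = -1` (`w = (u+1)/(u-1)`), at `u = ∞` (`v = 1/u`), at `u = 1` (`t = (u-1)/(u+1)`).
-/

open Set Filter Topology Metric

noncomputable section

namespace Vale.Agent.P030.H954

/-! ### slit plane -/

theorem two_mul_inv_mem {z : ℂ} (hz : z ∈ Complex.slitPlane) : 2 * z⁻¹ ∈ Complex.slitPlane := by
  have hn : 0 < Complex.normSq z := Complex.normSq_pos.2 (Complex.slitPlane_ne_zero hz)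
  rw [Complex.mem_slitPlane_iff] at hz ⊢
  have e1 : (2 * z⁻¹).re = 2 * (z.re / Complex.normSq z) := by
    simp [Complex.inv_re]
  have e2 : (2 * z⁻¹).im = 2 * (-z.im / Complex.normSq z) := by
    simp [Complex.inv_im]
  rw [e1, e2]
  rcases hz with h | h
  · left; positivity
  · right; exact mul_ne_zero two_ne_zero (div_ne_zero (neg_ne_zero.2 h) hn.ne')

/-! ### at `u = -1` -/

/-- `(u+1)/(u-1)` -/
def wc (u : ℂ) : ℂ := (u + 1) / (u - 1)

theorem one_sub_wc {u : ℂ} (hu : u ∈ Om) : 1 - wc u = 2 * (1 - u)⁻¹ := by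
  have h1 := one_sub_ne hu
  have h2 : u - 1 ≠ 0 := fun h => h1 (by linear_combination -h)
  rw [wc]
  field_simp
  ring

theorem wc_mem {u : ℂ} (hu : u ∈ Om) : wc u ∈ Om := by
  show 1 - wc u ∈ Complex.slitPlane
  rw [one_sub_wc hu]
  exact two_mul_inv_mem hu

theorem wc_wc {u : ℂ} (hu : u ∈ Om) : wc (wc u) = u := by
  have h1 := one_sub_ne hu
  have h2 : u - 1 ≠ 0 := fun h => h1 (by linear_combination -h)
  rw [wc, wc]
  have h3 : (u + 1) / (u - 1) - 1 ≠ 0 := by
    have : (u + 1) / (u - 1) - 1 = 2 / (u - 1) := by field_simp; ring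
    rw [this]; exact div_ne_zero two_ne_zero h2
  field_simp
  ring

theorem hasDerivAt_wc {u : ℂ} (hu : u ∈ Om) : HasDerivAt wc (-(2 / (1 - u) ^ 2)) u := by
  have h1 := one_sub_ne hu
  have h2 : u - 1 ≠ 0 := fun h => h1 (by linear_combination -h)
  have h3 := ((hasDerivAt_id u).add_const 1).div ((hasDerivAt_id u).sub_const 1) h2
  refine h3.congr_deriv ?_
  simp only [id]
  field_simp
  ring

theorem isPreconnected_Om : IsPreconnected Om := by
  have : StarConvex ℝ (0:ℂ) Om := by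
    intro z hz a b ha hb hab
    rw [smul_zero, zero_add, Complex.real_smul]
    exact star_Om z hz b ⟨hb, by linarith⟩
  exact (this.isPathConnected zero_mem_Om).isConnected.isPreconnected

theorem Lg_wc {u : ℂ} (hu : u ∈ Om) : Lg (wc u) = -lc - Lg u := by
  refine eqOn_of_hasDeriv (f := fun u => Lg (wc u)) (g := fun u => -lc - Lg u)
    (f' := fun u => -(1 / (1 - u))) isOpen_Om isPreconnected_Om (fun w hw => ?_) (fun w hw => ?_)
    zero_mem_Om ?_ u hu
  · have h1 := (hasDerivAt_Lg (wc_mem hw)).comp w (hasDerivAt_wc hw)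
    refine h1.congr_deriv ?_
    have h2 := one_sub_ne hw
    rw [one_sub_wc hw]
    field_simp
  · exact (hasDerivAt_Lg hw).const_sub (-lc)
  · have : wc 0 = -1 := by simp [wc]
    rw [this]; simp

theorem qL_wc {u : ℂ} (hu : u ∈ Om) : qL (wc u) = (1 - u) * qJ u := by
  have h1 := one_sub_ne hu
  have h2 : u - 1 ≠ 0 := fun h => h1 (by linear_combination -h)
  by_cases h : u = -1
  · subst h
    have : wc (-1) = 0 := by simp [wc]
    rw [this, qL_zero, qJ, dslope_same, (hasDerivAt_Lg neg_one_mem_Om).deriv]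
    norm_num
  · have h3 : u + 1 ≠ 0 := fun h' => h (by linear_combination h')
    have h4 : (1:ℂ) + u ≠ 0 := by rwa [add_comm]
    have h5 : wc u ≠ 0 := by rw [wc]; exact div_ne_zero h3 h2
    rw [qL_of_ne h5, qJ_of_ne h, Lg_wc hu, wc]
    field_simp
    ring

/-- the expansion of `g6` at `u = -1` -/
theorem g6_add_g7 {u : ℂ} (hu : u ∈ Om) :
    g6 u + g7 u = -Li2 (wc u) - (Real.pi:ℂ) ^ 2 / 12 := by
  refine eqOn_of_hasDeriv (f := fun u => g6 u + g7 u)
    (g := fun u => -Li2 (wc u) - (Real.pi:ℂ) ^ 2 / 12)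
    (f' := fun u => 2 * qJ u / (1 - u)) isOpen_Om isPreconnected_Om (fun w hw => ?_)
    (fun w hw => ?_) zero_mem_Om ?_ u hu
  · have hL := hasDerivAt_Lg hw
    have h1 := (hL.const_mul (lc / 2)).add (hasDerivAt_Jg' hw)
    have h2 := (hL.mul (hL.add_const lc)).div_const 2
    refine (h1.add h2).congr_deriv ?_
    have h3 := one_sub_ne hw
    have h4 := mul_qJ w
    field_simp
    linear_combination (-2) * h4
  · have h1 := ((hasDerivAt_Li2' (wc_mem hw)).comp w (hasDerivAt_wc hw)).neg.sub_const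
      ((Real.pi:ℂ) ^ 2 / 12)
    refine h1.congr_deriv ?_
    rw [qL_wc hw]
    have h3 := one_sub_ne hw
    field_simp
  · have : wc 0 = -1 := by simp [wc]
    rw [this, Li2_neg_one]; simp [g6, g7]

theorem g6_neg_one : g6 (-1) = -((Real.pi:ℂ) ^ 2 / 12) := by
  have h := g6_add_g7 neg_one_mem_Om
  have : wc (-1) = 0 := by simp [wc]
  rw [this, Li2_zero, g7, Lg_neg_one] at h
  linear_combination h

theorem Jg_neg_one : Jg (-1) = lc ^ 2 / 2 - (Real.pi:ℂ) ^ 2 / 12 := by
  have h := g6_neg_one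
  rw [g6, Lg_neg_one] at h
  linear_combination h

/-! ### at infinity -/

theorem g7_inv {v : ℂ} (hv : v ∈ V) :
    g7 v⁻¹ = (Complex.log (-v) + Lg v) * (Complex.log (-v) + Lg v + lc) / 2 := by
  rw [g7, Lg_inv hv]

/-- `g6` at infinity, the form without `log (1 + v)` -/
theorem g6_inv' {v : ℂ} (hv : v ∈ V) :
    g6 v⁻¹ = -((Real.pi:ℂ) ^ 2 / 12) - Complex.log (-v) ^ 2 / 2
      - lc / 2 * (Complex.log (-v) - Lg v) + Jg v - Li2 v - Li2 (1 + v) := by
  refine eqOn_of_hasDeriv (f := fun v => g6 v⁻¹)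
    (g := fun v => -((Real.pi:ℂ) ^ 2 / 12) - Complex.log (-v) ^ 2 / 2
      - lc / 2 * (Complex.log (-v) - Lg v) + Jg v - Li2 v - Li2 (1 + v))
    (f' := fun v => -(lc / 2 * (1 / v - 1 / (1 - v))) - Complex.log (-v) / v - Lg v / v + qJ v
      - qL (1 + v)) isOpen_V isPreconnected_V (fun w hw => ?_) (fun w hw => ?_) neg_one_mem_V ?_ v hv
  · have h0 := V_ne hw
    have hi := V_sub_Om (inv_mem_V hw)
    have h1 := (((hasDerivAt_Lg hi).const_mul (lc / 2)).add (hasDerivAt_Jg' hi)).comp w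
      (hasDerivAt_inv' h0)
    refine h1.congr_deriv ?_
    have e1 := one_sub_ne hi
    have e2 := one_sub_ne (V_sub_Om hw)
    have e3 : w - 1 ≠ 0 := fun h => e2 (by linear_combination -h)
    have e4 : (1:ℂ) - w⁻¹ = (w - 1) / w := by field_simp
    by_cases hm : w = -1
    · subst hm
      have e5 : ((-1:ℂ))⁻¹ = -1 := by norm_num
      have e6 : qJ (-1) = 1 / 2 := by
        rw [qJ, dslope_same, (hasDerivAt_Lg neg_one_mem_Om).deriv]; norm_num
      have e7 : (1:ℂ) + -1 = 0 := by norm_num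
      rw [e5, e6, e7, qL_zero, neg_neg, Complex.log_one, Lg_neg_one]
      norm_num
      ring
    · have e5 : (1:ℂ) + w ≠ 0 := fun h => hm (by linear_combination h)
      have e6 : w⁻¹ ≠ -1 := fun h => hm (by
        have := inv_inv w
        rw [h] at this
        rw [← this]; norm_num)
      have e7 : (1:ℂ) + w⁻¹ = (1 + w) / w := by field_simp; ring
      rw [qJ_of_ne e6, qJ_of_ne hm, qL_of_ne e5, Lg_inv hw, e4, e7]
      have e8 : Lg (1 + w) = -Complex.log (-w) := by
        rw [Lg]; congr 2; ring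
      rw [e8]
      field_simp
      ring
  · have h0 := V_ne hw
    have hT := hasDerivAt_logneg hw
    have hL := hasDerivAt_Lg (V_sub_Om hw)
    have h3 : HasDerivAt (fun v : ℂ => 1 + v) 1 w := by simpa using (hasDerivAt_id w).const_add 1
    have h1 := ((((((hT.pow 2).div_const 2).const_sub (-((Real.pi:ℂ) ^ 2 / 12))).sub
      ((hT.sub hL).const_mul (lc / 2))).add (hasDerivAt_Jg' (V_sub_Om hw))).sub
      (hasDerivAt_Li2 (V_sub_Om hw) h0)).sub
      ((hasDerivAt_Li2' (one_add_mem_Om hw)).comp w h3)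
    refine h1.congr_deriv ?_
    push_cast
    have e2 := one_sub_ne (V_sub_Om hw)
    field_simp
    ring
  · have e5 : ((-1:ℂ))⁻¹ = -1 := by norm_num
    have e7 : (1:ℂ) + -1 = 0 := by norm_num
    simp only [neg_neg]
    rw [e5, e7, g6_neg_one, Li2_zero, Complex.log_one, Lg_neg_one, Jg_neg_one, Li2_neg_one]
    ring

/-- `g6` at infinity -/
theorem g6_inv {v : ℂ} (hv : v ∈ W) :
    g6 v⁻¹ = -((Real.pi:ℂ) ^ 2 / 4) - Complex.log (-v) ^ 2 / 2
      + Complex.log (-v) * (Complex.log (1 + v) - lc / 2) + lc / 2 * Lg v + Jg v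
      - Li2 v + Li2 (-v) := by
  rw [g6_inv' hv.1]
  linear_combination -Li2_reflect hv

/-! ### at `u = 1` -/

/-- `(1+t)/(1-t)` -/
def uc (t : ℂ) : ℂ := (1 + t) / (1 - t)

theorem one_sub_uc {t : ℂ} (ht : t ∈ V) : 1 - uc t = -(2 * t) / (1 - t) := by
  have h1 := one_sub_ne (V_sub_Om ht)
  rw [uc]
  field_simp
  ring

theorem uc_mem {t : ℂ} (ht : t ∈ V) : uc t ∈ Om := by
  show 1 - uc t ∈ Complex.slitPlane
  have h1 := one_sub_ne (V_sub_Om ht)
  have h0 := V_ne ht
  have hv := V_sub_Om (inv_mem_V ht)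
  have e : 1 - uc t = 2 * (1 - t⁻¹)⁻¹ := by
    rw [one_sub_uc ht]
    have h3 : t - 1 ≠ 0 := fun h => h1 (by linear_combination -h)
    have e4 : (1:ℂ) - t⁻¹ = (t - 1) / t := by field_simp
    rw [e4]
    field_simp
    ring
  rw [e]
  exact two_mul_inv_mem hv

theorem hasDerivAt_uc {t : ℂ} (ht : t ∈ Om) : HasDerivAt uc (2 / (1 - t) ^ 2) t := by
  have h1 := one_sub_ne ht
  have h3 := ((hasDerivAt_id t).const_add 1).div ((hasDerivAt_id t).const_sub 1) h1
  refine h3.congr_deriv ?_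
  simp only [id]
  field_simp
  ring

theorem uc_neg_one : uc (-1) = 0 := by simp [uc]

theorem Lg_uc {t : ℂ} (ht : t ∈ V) : Lg (uc t) = -lc - Complex.log (-t) - Lg t := by
  refine eqOn_of_hasDeriv (f := fun t => Lg (uc t)) (g := fun t => -lc - Complex.log (-t) - Lg t)
    (f' := fun t => -(1 / t) - 1 / (1 - t)) isOpen_V isPreconnected_V (fun w hw => ?_)
    (fun w hw => ?_) neg_one_mem_V ?_ t ht
  · have h1 := (hasDerivAt_Lg (uc_mem hw)).comp w (hasDerivAt_uc (V_sub_Om hw))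
    refine h1.congr_deriv ?_
    have h2 := one_sub_ne (V_sub_Om hw)
    have h0 := V_ne hw
    rw [one_sub_uc hw]
    field_simp
    ring
  · have h1 := ((hasDerivAt_logneg hw).const_sub (-lc)).sub (hasDerivAt_Lg (V_sub_Om hw))
    exact h1
  · simp only [uc_neg_one, Lg_zero, neg_neg, Complex.log_one, Lg_neg_one]
    ring

theorem g7_uc {t : ℂ} (ht : t ∈ V) :
    g7 (uc t) = (Complex.log (-t) + Lg t) * (Complex.log (-t) + Lg t + lc) / 2 := by
  rw [g7, Lg_uc ht]; ring

theorem uc_ne_neg_one {t : ℂ} (ht : t ∈ Om) : uc t ≠ -1 := by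
  have h1 := one_sub_ne ht
  rw [uc]
  intro h
  rw [div_eq_iff h1] at h
  have : (2:ℂ) = 0 := by linear_combination h
  exact two_ne_zero this

theorem g6_uc {t : ℂ} (ht : t ∈ V) :
    g6 (uc t) = (Real.pi:ℂ) ^ 2 / 12 - lc / 2 * (Complex.log (-t) + Lg t)
      - Complex.log (-t) * Lg t + Li2 t - Lg t ^ 2 / 2 := by
  refine eqOn_of_hasDeriv (f := fun t => g6 (uc t))
    (g := fun t => (Real.pi:ℂ) ^ 2 / 12 - lc / 2 * (Complex.log (-t) + Lg t)
      - Complex.log (-t) * Lg t + Li2 t - Lg t ^ 2 / 2)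
    (f' := fun t => -(lc / 2 * (1 / t + 1 / (1 - t))) - (Complex.log (-t) + Lg t) / (1 - t))
    isOpen_V isPreconnected_V (fun w hw => ?_)
    (fun w hw => ?_) neg_one_mem_V ?_ t ht
  · have hi := uc_mem hw
    have h1 := (((hasDerivAt_Lg hi).const_mul (lc / 2)).add
      (hasDerivAt_Jg hi (uc_ne_neg_one (V_sub_Om hw)))).comp w (hasDerivAt_uc (V_sub_Om hw))
    refine h1.congr_deriv ?_
    have h2 := one_sub_ne (V_sub_Om hw)
    have h0 := V_ne hw
    have e1 : 1 + uc w = 2 / (1 - w) := by rw [uc]; field_simp; ring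
    rw [one_sub_uc hw, e1, Lg_uc hw]
    field_simp
    ring
  · have h0 := V_ne hw
    have hT := hasDerivAt_logneg hw
    have hL := hasDerivAt_Lg (V_sub_Om hw)
    have h1 := (((((hT.add hL).const_mul (lc / 2)).const_sub ((Real.pi:ℂ) ^ 2 / 12)).sub
      (hT.mul hL)).add (hasDerivAt_Li2 (V_sub_Om hw) h0)).sub ((hL.pow 2).div_const 2)
    refine h1.congr_deriv ?_
    have e2 := one_sub_ne (V_sub_Om hw)
    push_cast
    field_simp
    ring
  · simp only [uc_neg_one, neg_neg]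
    rw [g6, Lg_zero, Jg_zero, Complex.log_one, Lg_neg_one, Li2_neg_one]
    ring

/-- `Li2` at `u = 1`, the form without `log (1 + t)` -/
theorem Li2_uc' {t : ℂ} (ht : t ∈ V) :
    Li2 (uc t) = -((lc + Complex.log (-t)) * Lg t) + Li2 t + Li2 (1 + t) - Lg t ^ 2 / 2 - Jg t := by
  refine eqOn_of_hasDeriv (f := fun t => Li2 (uc t))
    (g := fun t => -((lc + Complex.log (-t)) * Lg t) + Li2 t + Li2 (1 + t) - Lg t ^ 2 / 2 - Jg t)
    (f' := fun t => -(lc + Complex.log (-t) + Lg t) / (1 - t) + qL (1 + t) - qJ t)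
    isOpen_V isPreconnected_V (fun w hw => ?_)
    (fun w hw => ?_) neg_one_mem_V ?_ t ht
  · have hi := uc_mem hw
    have h1 := (hasDerivAt_Li2' hi).comp w (hasDerivAt_uc (V_sub_Om hw))
    refine h1.congr_deriv ?_
    have h2 := one_sub_ne (V_sub_Om hw)
    have h0 := V_ne hw
    by_cases hm : w = -1
    · subst hm
      have e6 : qJ (-1) = 1 / 2 := by
        rw [qJ, dslope_same, (hasDerivAt_Lg neg_one_mem_Om).deriv]; norm_num
      have e7 : (1:ℂ) + -1 = 0 := by norm_num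
      rw [uc_neg_one, e6, e7, qL_zero, neg_neg, Complex.log_one, Lg_neg_one]
      norm_num
    · have e5 : (1:ℂ) + w ≠ 0 := fun h => hm (by linear_combination h)
      have e6 : uc w ≠ 0 := by rw [uc]; exact div_ne_zero e5 h2
      rw [qJ_of_ne hm, qL_of_ne e5, qL_of_ne e6, Lg_uc hw, uc]
      have e8 : Lg (1 + w) = -Complex.log (-w) := by
        rw [Lg]; congr 2; ring
      rw [e8]
      field_simp
      ring
  · have h0 := V_ne hw
    have hT := hasDerivAt_logneg hw
    have hL := hasDerivAt_Lg (V_sub_Om hw)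
    have h3 : HasDerivAt (fun v : ℂ => 1 + v) 1 w := by simpa using (hasDerivAt_id w).const_add 1
    have h1 := (((((hT.const_add lc).mul hL).neg.add (hasDerivAt_Li2 (V_sub_Om hw) h0)).add
      ((hasDerivAt_Li2' (one_add_mem_Om hw)).comp w h3)).sub ((hL.pow 2).div_const 2)).sub
      (hasDerivAt_Jg' (V_sub_Om hw))
    refine h1.congr_deriv ?_
    have e2 := one_sub_ne (V_sub_Om hw)
    push_cast
    field_simp
    ring
  · have e7 : (1:ℂ) + -1 = 0 := by norm_num
    simp only [uc_neg_one, neg_neg]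
    rw [Li2_zero, Complex.log_one, Lg_neg_one, Li2_neg_one, e7, Li2_zero, Jg_neg_one]
    ring

theorem Li2_uc {t : ℂ} (ht : t ∈ W) :
    Li2 (uc t) = (Real.pi:ℂ) ^ 2 / 6 - Complex.log (-t) * Complex.log (1 + t)
      - (lc + Complex.log (-t)) * Lg t + Li2 t - Li2 (-t) - Lg t ^ 2 / 2 - Jg t := by
  rw [Li2_uc' ht.1]
  linear_combination Li2_reflect ht

end Vale.Agent.P030.H954
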