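import Mathlib

/-!
# P030, row CONN-PL (polylogarithms): the dilogarithm on `ℂ \ [1,∞)`

`Lg z = - log (1 - z)`, `Li2` its dilogarithm; derivative, power series, reflection, inversion and
the Landen formula on the full slit domains, special values.
-/

open Set Filter Topology Metric

noncomputable section

namespace Vale.Agent.P030.H954

/-! ### primitives on star shaped domains -/

theorem hasDerivAt_starPrim {Ω : Set ℂ} (ho : IsOpen Ω)
    (hs : ∀ z ∈ Ω, ∀ s ∈ Icc (0:ℝ) 1, (s:ℂ) * z ∈ Ω) {f : ℂ → ℂ} (hf : DifferentiableOn ℂ f Ω)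
    {z : ℂ} (hz : z ∈ Ω) :
    HasDerivAt (fun w => ∫ s in (0:ℝ)..1, f ((s:ℂ) * w) * w) (f z) z := by
  obtain ⟨r, hr, hball⟩ := Metric.nhds_basis_closedBall.mem_iff.1 (ho.mem_nhds hz)
  have hfd : ∀ w ∈ Ω, HasDerivAt f (deriv f w) w := fun w hw =>
    (hf.differentiableAt (ho.mem_nhds hw)).hasDerivAt
  have hd' : DifferentiableOn ℂ (deriv f) Ω := hf.deriv ho
  set G : ℂ → ℝ → ℂ := fun w s => f ((s:ℂ) * w) + (s:ℂ) * deriv f ((s:ℂ) * w) * w with hG
  have hmem : ∀ w ∈ closedBall z r, ∀ s ∈ Icc (0:ℝ) 1, (s:ℂ) * w ∈ Ω := fun w hw s hs' =>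
    hs w (hball hw) s hs'
  -- joint continuity
  have hcontG : ContinuousOn (fun p : ℂ × ℝ => G p.1 p.2) (closedBall z r ×ˢ Icc (0:ℝ) 1) := by
    have hm : ContinuousOn (fun p : ℂ × ℝ => ((p.2:ℂ)) * p.1) (closedBall z r ×ˢ Icc (0:ℝ) 1) := by
      fun_prop
    have hmt : MapsTo (fun p : ℂ × ℝ => ((p.2:ℂ)) * p.1) (closedBall z r ×ˢ Icc (0:ℝ) 1) Ω :=
      fun p hp => hmem p.1 hp.1 p.2 hp.2
    have h1 := hf.continuousOn.comp hm hmt
    have h2 := hd'.continuousOn.comp hm hmt
    have h3 : ContinuousOn (fun p : ℂ × ℝ => ((p.2:ℂ))) (closedBall z r ×ˢ Icc (0:ℝ) 1) := by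
      fun_prop
    have h4 : ContinuousOn (fun p : ℂ × ℝ => p.1) (closedBall z r ×ˢ Icc (0:ℝ) 1) := by
      fun_prop
    exact h1.add ((h3.mul h2).mul h4)
  obtain ⟨M, hM⟩ := ((isCompact_closedBall z r).prod isCompact_Icc).exists_bound_of_continuousOn
    hcontG
  have hslice : ∀ w ∈ closedBall z r, ContinuousOn (fun s : ℝ => f ((s:ℂ) * w) * w)
      (Icc (0:ℝ) 1) := by
    intro w hw
    refine ContinuousOn.mul (hf.continuousOn.comp (by fun_prop) fun s hs' => hmem w hw s hs')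
      continuousOn_const
  have key := intervalIntegral.hasDerivAt_integral_of_dominated_loc_of_deriv_le
    (μ := MeasureTheory.volume) (a := (0:ℝ)) (b := 1) (s := ball z r) (x₀ := z)
    (F := fun w s => f ((s:ℂ) * w) * w) (F' := G) (bound := fun _ => M)
    (ball_mem_nhds z hr)
    (by
      filter_upwards [ball_mem_nhds z hr] with w hw
      have := hslice w (ball_subset_closedBall hw)
      refine (this.mono ?_).aestronglyMeasurable measurableSet_uIoc
      rw [uIoc_of_le zero_le_one]; exact Ioc_subset_Icc_self)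
    (by
      refine ContinuousOn.intervalIntegrable ?_
      rw [uIcc_of_le zero_le_one]
      exact hslice z (mem_closedBall_self hr.le))
    (by
      have : ContinuousOn (fun s : ℝ => G z s) (Icc (0:ℝ) 1) :=
        hcontG.comp (f := fun s : ℝ => (z, s)) (by fun_prop)
          fun s hs' => ⟨mem_closedBall_self hr.le, hs'⟩
      refine (this.mono ?_).aestronglyMeasurable measurableSet_uIoc
      rw [uIoc_of_le zero_le_one]; exact Ioc_subset_Icc_self)
    (by
      refine Eventually.of_forall fun s hs' w hw => ?_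
      rw [uIoc_of_le zero_le_one] at hs'
      exact hM (w, s) ⟨ball_subset_closedBall hw, Ioc_subset_Icc_self hs'⟩)
    (by simp)
    (by
      refine Eventually.of_forall fun s hs' w hw => ?_
      rw [uIoc_of_le zero_le_one] at hs'
      have hmw := hmem w (ball_subset_closedBall hw) s (Ioc_subset_Icc_self hs')
      have h1 : HasDerivAt (fun w : ℂ => (s:ℂ) * w) (s:ℂ) w := by
        simpa using (hasDerivAt_id w).const_mul (s:ℂ)
      have h2 := (hfd _ hmw).comp w h1
      have h3 := h2.mul (hasDerivAt_id w)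
      refine h3.congr_deriv ?_
      simp only [hG, Function.comp, id]
      ring)
  have hint : (∫ s in (0:ℝ)..1, G z s) = f z := by
    have hder : ∀ s ∈ uIcc (0:ℝ) 1, HasDerivAt (fun s : ℝ => (s:ℂ) * f ((s:ℂ) * z)) (G z s) s := by
      intro s hs'
      rw [uIcc_of_le zero_le_one] at hs'
      have hmw := hs z hz s hs'
      have h0 : HasDerivAt (fun s : ℝ => (s:ℂ)) 1 s := Complex.ofRealCLM.hasDerivAt
      have h1 : HasDerivAt (fun s : ℝ => (s:ℂ) * z) z s := by simpa using h0.mul_const z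
      have h2 := (hfd _ hmw).scomp s h1
      have h3 := h0.mul h2
      refine h3.congr_deriv ?_
      simp only [hG, Function.comp, smul_eq_mul]
      ring
    rw [intervalIntegral.integral_eq_sub_of_hasDerivAt hder]
    · simp
    · refine ContinuousOn.intervalIntegrable ?_
      rw [uIcc_of_le zero_le_one]
      exact hcontG.comp (f := fun s : ℝ => (z, s)) (by fun_prop)
          fun s hs' => ⟨mem_closedBall_self hr.le, hs'⟩
  rw [← hint]
  exact key.2

/-! ### the logarithm -/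

/-- `ℂ \ [1,∞)` -/
def Om : Set ℂ := {z | 1 - z ∈ Complex.slitPlane}

theorem isOpen_Om : IsOpen Om := Complex.isOpen_slitPlane.preimage (by fun_prop)

theorem mem_Om {z : ℂ} : z ∈ Om ↔ z.re < 1 ∨ z.im ≠ 0 := by
  simp only [Om, Set.mem_ofPred_eq, Complex.mem_slitPlane_iff, Complex.sub_re, Complex.one_re,
    Complex.sub_im, Complex.one_im, sub_pos, zero_sub, ne_eq, neg_eq_zero]

theorem zero_mem_Om : (0:ℂ) ∈ Om := by simp [mem_Om]

theorem ball_sub_Om : ball (0:ℂ) 1 ⊆ Om := by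
  intro z hz
  rw [mem_ball_zero_iff] at hz
  exact mem_Om.2 (Or.inl ((Complex.re_le_norm z).trans_lt hz))

theorem star_Om : ∀ z ∈ Om, ∀ s ∈ Icc (0:ℝ) 1, (s:ℂ) * z ∈ Om := by
  intro z hz s hs
  rw [mem_Om] at hz ⊢
  simp only [Complex.mul_re, Complex.ofReal_re, Complex.ofReal_im, zero_mul, sub_zero,
    Complex.mul_im, add_zero]
  by_cases h : s * z.im = 0
  · left
    rcases mul_eq_zero.1 h with h0 | h0
    · rw [h0]; norm_num
    · rcases hz with hz | hz
      · rcases le_or_gt z.re 0 with h1 | h1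
        · nlinarith [hs.1, hs.2]
        · nlinarith [hs.1, hs.2]
      · exact absurd h0 hz
  · right; exact h

/-- `L z = - log (1 - z)` -/
def Lg (z : ℂ) : ℂ := -Complex.log (1 - z)

@[simp] theorem Lg_zero : Lg 0 = 0 := by simp [Lg]

theorem one_sub_ne {z : ℂ} (hz : z ∈ Om) : 1 - z ≠ 0 := Complex.slitPlane_ne_zero hz

theorem hasDerivAt_Lg {z : ℂ} (hz : z ∈ Om) : HasDerivAt Lg (1 / (1 - z)) z := by
  have h1 : HasDerivAt (fun w : ℂ => 1 - w) (-1) z := by
    simpa using (hasDerivAt_id z).const_sub 1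
  have := (h1.clog hz).neg
  refine this.congr_deriv ?_
  ring

theorem diff_Lg : DifferentiableOn ℂ Lg Om := fun _ hz =>
  (hasDerivAt_Lg hz).differentiableAt.differentiableWithinAt

/-- `L z / z` -/
def qL : ℂ → ℂ := dslope Lg 0

theorem qL_of_ne {z : ℂ} (hz : z ≠ 0) : qL z = Lg z / z := by
  simp [qL, dslope_of_ne _ hz, slope_def_field]

theorem qL_zero : qL 0 = 1 := by
  rw [qL, dslope_same, (hasDerivAt_Lg zero_mem_Om).deriv]
  simp

theorem mul_qL (z : ℂ) : z * qL z = Lg z := by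
  by_cases hz : z = 0
  · subst hz; simp
  · rw [qL_of_ne hz]; field_simp

theorem diff_qL : DifferentiableOn ℂ qL Om :=
  (Complex.differentiableOn_dslope (isOpen_Om.mem_nhds zero_mem_Om)).2 diff_Lg

/-- the dilogarithm on `ℂ \ [1,∞)` -/
def Li2 (z : ℂ) : ℂ := ∫ s in (0:ℝ)..1, qL ((s:ℂ) * z) * z

@[simp] theorem Li2_zero : Li2 0 = 0 := by simp [Li2]

theorem hasDerivAt_Li2' {z : ℂ} (hz : z ∈ Om) : HasDerivAt Li2 (qL z) z :=
  hasDerivAt_starPrim isOpen_Om star_Om diff_qL hz

theorem hasDerivAt_Li2 {z : ℂ} (hz : z ∈ Om) (h0 : z ≠ 0) : HasDerivAt Li2 (Lg z / z) z := by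
  rw [← qL_of_ne h0]; exact hasDerivAt_Li2' hz

theorem diff_Li2 : DifferentiableOn ℂ Li2 Om := fun _ hz =>
  (hasDerivAt_Li2' hz).differentiableAt.differentiableWithinAt

/-! ### power series -/

theorem hasSum_Lg {z : ℂ} (hz : ‖z‖ < 1) : HasSum (fun n : ℕ => z ^ n / n) (Lg z) := by
  simpa [Lg] using Complex.hasSum_taylorSeries_neg_log hz

theorem summable_sq_inv : Summable (fun n : ℕ => (1:ℝ) / (n:ℝ) ^ 2) := hasSum_zeta_two.summable

theorem hasSum_Li2 {z : ℂ} (hz : ‖z‖ < 1) : HasSum (fun n : ℕ => z ^ n / (n:ℂ) ^ 2) (Li2 z) := by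
  obtain ⟨r, hr, hr1⟩ := exists_between hz
  have hr0 : 0 < r := (norm_nonneg z).trans_lt hr
  have hu : Summable (fun n : ℕ => r ^ (n - 1)) := by
    have : Summable (fun n : ℕ => r⁻¹ * r ^ n + (if n = 0 then 1 - r⁻¹ else 0)) := by
      refine ((summable_geometric_of_lt_one hr0.le hr1).mul_left _).add ?_
      exact summable_of_ne_finset_zero (s := {0}) (by intro n hn; simp at hn; simp [hn])
    refine this.congr fun n => ?_
    rcases n with _ | n
    · simp
    · simp only [Nat.add_sub_cancel, Nat.succ_ne_zero, if_false, add_zero]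
      rw [pow_succ]; field_simp
  have hsum : ∀ w : ℂ, ‖w‖ ≤ 1 → Summable (fun n : ℕ => w ^ n / (n:ℂ) ^ 2) := by
    intro w hw
    refine Summable.of_norm_bounded summable_sq_inv fun n => ?_
    rw [norm_div, norm_pow, norm_pow, Complex.norm_natCast]
    exact div_le_div_of_nonneg_right (pow_le_one₀ (norm_nonneg _) hw) (by positivity)
  have hder : ∀ w ∈ ball (0:ℂ) r, HasDerivAt (fun y : ℂ => ∑' n : ℕ, y ^ n / (n:ℂ) ^ 2)
      (∑' n : ℕ, (n:ℂ) * w ^ (n - 1) / (n:ℂ) ^ 2) w := by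
    intro w hw
    refine hasDerivAt_tsum_of_isPreconnected (g := fun (n:ℕ) (y:ℂ) => y ^ n / (n:ℂ) ^ 2)
      (g' := fun (n:ℕ) (y:ℂ) => (n:ℂ) * y ^ (n - 1) / (n:ℂ) ^ 2) hu isOpen_ball
      (convex_ball _ _).isPreconnected
      (fun n y _ => (hasDerivAt_pow n y).div_const _) ?_ (mem_ball_self hr0)
      (hsum 0 (by simp)) hw
    intro n y hy
    rw [mem_ball_zero_iff] at hy
    rcases Nat.eq_zero_or_pos n with rfl | hn
    · simp
    · have hn' : (1:ℝ) ≤ n := by exact_mod_cast hn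
      have e : (n:ℂ) * y ^ (n - 1) / (n:ℂ) ^ 2 = y ^ (n - 1) / n := by
        have : (n:ℂ) ≠ 0 := by exact_mod_cast hn.ne'
        field_simp
      rw [e, norm_div, norm_pow, Complex.norm_natCast]
      calc ‖y‖ ^ (n - 1) / n ≤ ‖y‖ ^ (n - 1) / 1 :=
            div_le_div_of_nonneg_left (by positivity) one_pos hn'
        _ ≤ r ^ (n - 1) := by
            rw [div_one]; exact pow_le_pow_left₀ (norm_nonneg _) hy.le _
  have heq : ∀ w ∈ ball (0:ℂ) r, (∑' n : ℕ, (n:ℂ) * w ^ (n - 1) / (n:ℂ) ^ 2) = qL w := by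
    intro w hw
    have hw1 : ‖w‖ < 1 := (mem_ball_zero_iff.1 hw).trans hr1
    by_cases h0 : w = 0
    · subst h0
      rw [qL_zero, tsum_eq_single 1]
      · simp
      · intro n hn
        rcases Nat.eq_zero_or_pos n with rfl | hn'
        · simp
        · have : n - 1 ≠ 0 := by omega
          simp [this]
    · rw [qL_of_ne h0]
      have h1 := (hasSum_Lg hw1).div_const w
      rw [← h1.tsum_eq]
      refine tsum_congr fun n => ?_
      rcases Nat.eq_zero_or_pos n with rfl | hn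
      · simp
      · have hn' : (n:ℂ) ≠ 0 := by exact_mod_cast hn.ne'
        have e : w ^ n = w ^ (n - 1) * w := by rw [← pow_succ]; congr 1; omega
        rw [e]; field_simp
  have hzb : z ∈ ball (0:ℂ) r := by rwa [mem_ball_zero_iff]
  have hEq := IsOpen.eqOn_of_deriv_eq (f := fun y : ℂ => ∑' n : ℕ, y ^ n / (n:ℂ) ^ 2) (g := Li2)
    (s := ball (0:ℂ) r) isOpen_ball (convex_ball _ _).isPreconnected
    (fun w hw => (hder w hw).differentiableAt.differentiableWithinAt)
    (fun w hw => (hasDerivAt_Li2' (ball_sub_Om ((ball_subset_ball hr1.le) hw))).differentiableAt.differentiableWithinAt)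
    (fun w hw => by
      rw [(hder w hw).deriv, heq w hw,
        (hasDerivAt_Li2' (ball_sub_Om ((ball_subset_ball hr1.le) hw))).deriv])
    (mem_ball_self hr0)
    (by
      rw [Li2_zero]
      show (∑' n : ℕ, (0:ℂ) ^ n / (n:ℂ) ^ 2) = 0
      rw [tsum_eq_single 0]
      · simp
      · intro n hn; simp [hn])
  have h2 := (hsum z hz.le).hasSum
  have h3 : (∑' n : ℕ, z ^ n / (n:ℂ) ^ 2) = Li2 z := hEq hzb
  rwa [h3] at h2

/-- the limit of `Li2` at `1` inside the disc -/
theorem tendsto_Li2_one : Tendsto Li2 (𝓝[ball (0:ℂ) 1] 1) (𝓝 ((Real.pi:ℂ) ^ 2 / 6)) := by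
  have hc : ContinuousOn (fun y : ℂ => ∑' n : ℕ, y ^ n / (n:ℂ) ^ 2) (closedBall (0:ℂ) 1) := by
    refine continuousOn_tsum (u := fun n : ℕ => (1:ℝ) / (n:ℝ) ^ 2) (fun n => by fun_prop)
      summable_sq_inv ?_
    intro n w hw
    rw [mem_closedBall_zero_iff] at hw
    rw [norm_div, norm_pow, norm_pow, Complex.norm_natCast]
    exact div_le_div_of_nonneg_right (pow_le_one₀ (norm_nonneg _) hw) (by positivity)
  have h1 := hc 1 (by simp)
  have hv : (∑' n : ℕ, (1:ℂ) ^ n / (n:ℂ) ^ 2) = (Real.pi:ℂ) ^ 2 / 6 := by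
    have := (Complex.hasSum_ofReal.2 hasSum_zeta_two).tsum_eq
    push_cast at this
    simpa using this
  rw [ContinuousWithinAt, hv] at h1
  refine (h1.mono_left (nhdsWithin_mono _ ball_subset_closedBall)).congr' ?_
  filter_upwards [self_mem_nhdsWithin] with w hw
  exact (hasSum_Li2 (mem_ball_zero_iff.1 hw)).tsum_eq

end Vale.Agent.P030.H954
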