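import Vale.Agent.P030.H954.Conn
import Vale.Agent.P030.H405.Poly
import Vale.Agent.P030.H462.EvSer

/-!
# P030, row P3: the functions `Lf, Li, f6, f7` (H405) at `u = ∞` and `u = 1`, by the series of T/Defs
-/

open Set Filter Topology Metric PowerSeries

noncomputable section

namespace Vale.Agent.P030.H954

open Vale.Agent.P030.T Vale.Agent.P030.H405 Vale.Agent.P030.H462

/-! ### the functions of H405 -/

theorem Li_eq (z : ℂ) : Li z = Li2 z := by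
  simp only [Li, prim, Li2, qL]
  refine intervalIntegral.integral_congr fun s _ => ?_
  exact mul_comm _ _

theorem Jf_eq (z : ℂ) : Jf z = Jg z := by
  simp only [Jf, prim, Jg, qJ]
  refine intervalIntegral.integral_congr fun s _ => ?_
  exact mul_comm _ _

theorem l2_eq : l2 = lc := rfl

theorem Lf_eq (z : ℂ) : Lf z = Lg z := rfl

theorem f6_eq (z : ℂ) : f6 z = g6 z := by
  rw [f6, g6, Jf_eq, Lf_eq, l2_eq]

theorem f7_eq (z : ℂ) : f7 z = g7 z := rfl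

/-! ### the series -/

theorem evQ_lgm' {z : ℂ} (hz : ‖z‖ < 1) : evQ lgm z = Lg z := evQ_lgm hz

theorem evQ_li2 {z : ℂ} (hz : ‖z‖ < 1) : evQ li2 z = Li2 z := by
  rw [← (hasSum_Li2 hz).tsum_eq]
  refine tsum_congr fun n => ?_
  simp only [li2, coeff_mk]
  split_ifs with h
  · subst h; simp
  · simp [div_eq_mul_inv, mul_comm]

theorem evQ_integ {f : ℚ⟦X⟧} (hf : PQ f) {F : ℂ → ℂ} (h0 : F 0 = 0)
    (hF : ∀ z : ℂ, ‖z‖ < 1 → HasDerivAt F (evQ f z) z) {z : ℂ} (hz : ‖z‖ < 1) :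
    evQ (integ f) z = F z := by
  refine eqOn_of_hasDeriv (f := evQ (integ f)) (g := F) (f' := fun z => evQ f z)
    (isOpen_ball (x := (0:ℂ)) (ε := 1)) (convex_ball (0:ℂ) 1).isPreconnected (fun w hw => ?_)
    (fun w hw => hF w (mem_ball_zero_iff.1 hw)) (mem_ball_self one_pos) ?_ z
    (mem_ball_zero_iff.2 hz)
  · have h1 := hasDerivAt_ev (pq_integ hf) (mem_ball_zero_iff.1 hw)
    rw [H605.D_integ] at h1
    exact h1
  · rw [h0]
    show ev (algebraMap ℚ ℂ) (integ f) 0 = 0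
    rw [ev_at_zero]
    simp [integ]

theorem one_add_ne_of_norm {z : ℂ} (hz : ‖z‖ < 1) : 1 + z ≠ 0 := by
  intro h
  have : z = -1 := by linear_combination h
  rw [this, norm_neg, norm_one] at hz
  exact lt_irrefl _ hz

theorem one_add_mem_of_norm {z : ℂ} (hz : ‖z‖ < 1) : 1 + z ∈ Complex.slitPlane :=
  Complex.mem_slitPlane_of_norm_lt_one hz

theorem mem_Om_of_norm' {z : ℂ} (hz : ‖z‖ < 1) : z ∈ H954.Om :=
  ball_sub_Om (mem_ball_zero_iff.2 hz)

theorem evQ_integ_geoa {z : ℂ} (hz : ‖z‖ < 1) :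
    evQ (integ (geoa * lgm)) z = Jg z - lc * Complex.log (1 + z) := by
  refine evQ_integ (pq_geoa.mul pq_lgm) (F := fun z => Jg z - lc * Complex.log (1 + z))
    (by simp) (fun w hw => ?_) hz
  have h1 := (hasDerivAt_Jg' (mem_Om_of_norm' hw)).sub
    ((hasDerivAt_lp (one_add_mem_of_norm hw)).const_mul lc)
  refine h1.congr_deriv ?_
  have h2 := one_add_ne_of_norm hw
  have h3 := mul_qJ w
  show _ = ev (algebraMap ℚ ℂ) (geoa * lgm) w
  rw [ev_mul pq_geoa pq_lgm hw]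
  show _ = evQ geoa w * evQ lgm w
  rw [evQ_geoa hw, evQ_lgm' hw]
  field_simp
  linear_combination h3

theorem geo2_eq : (sc (1 / 2) (geo + geoa) : ℚ⟦X⟧) = geo2 := by
  ext n
  simp only [sc, geo, geoa, geo2, coeff_C_mul, map_add, coeff_mk]
  split_ifs with h
  · rw [h.neg_one_pow]; norm_num
  · rw [(Nat.not_even_iff_odd.1 h).neg_one_pow]; norm_num

theorem evQ_geo2 {z : ℂ} (hz : ‖z‖ < 1) : evQ geo2 z = (1 / (1 - z) + 1 / (1 + z)) / 2 := by
  rw [← geo2_eq]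
  show ev (algebraMap ℚ ℂ) (C (1 / 2) * (geo + geoa)) z = _
  rw [ev_mul (PG.const _) (pq_geo.add pq_geoa) hz, ev_add pq_geo pq_geoa hz, ev_C]
  show _ * (evQ geo z + evQ geoa z) = _
  rw [evQ_geo hz, evQ_geoa hz]
  simp only [eq_ratCast]
  push_cast
  ring

theorem evQ_integ_geo2 {z : ℂ} (hz : ‖z‖ < 1) :
    evQ (integ (geo2 * lgm)) z = (Lg z ^ 2 / 2 + Jg z - lc * Complex.log (1 + z)) / 2 := by
  refine evQ_integ (pq_geo2.mul pq_lgm)
    (F := fun z => (Lg z ^ 2 / 2 + Jg z - lc * Complex.log (1 + z)) / 2)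
    (by simp) (fun w hw => ?_) hz
  have h1 := (((((hasDerivAt_Lg (mem_Om_of_norm' hw)).pow 2).div_const 2).add
    (hasDerivAt_Jg' (mem_Om_of_norm' hw))).sub
    ((hasDerivAt_lp (one_add_mem_of_norm hw)).const_mul lc)).div_const 2
  refine h1.congr_deriv ?_
  have h2 := one_add_ne_of_norm hw
  have h3 := mul_qJ w
  have h4 := one_sub_ne (mem_Om_of_norm' hw)
  show _ = ev (algebraMap ℚ ℂ) (geo2 * lgm) w
  rw [ev_mul pq_geo2 pq_lgm hw]
  show _ = evQ geo2 w * evQ lgm w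
  rw [evQ_geo2 hw, evQ_lgm' hw]
  push_cast
  field_simp
  linear_combination (1 - w) * h3

/-! ### the expansions at `u = ∞` -/

section inf

variable {v : ℂ} (hv : -v ∈ Complex.slitPlane) (h1 : ‖v‖ < 1)

include hv h1

theorem Lf_inf : Lf v⁻¹ = Complex.log (-v) + evQ lgm v := by
  rw [evQ_lgm' h1, Lf_eq, Lg_inv hv]

theorem Li_inf : Li v⁻¹ = -((Real.pi:ℂ) ^ 2 / 6) - Complex.log (-v) ^ 2 / 2 - evQ li2 v := by
  rw [evQ_li2 h1, Li_eq, Li2_inv hv]

theorem f6_inf : f6 v⁻¹ = -((Real.pi:ℂ) ^ 2 / 4) - Complex.log (-v) ^ 2 / 2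
    + Complex.log (-v) * (evQ lgp v - l2 / 2) + l2 / 2 * evQ lgm v + l2 * evQ lgp v
    - evQ li2 v + evQ li2 (-v) + evQ (integ (geoa * lgm)) v := by
  have hn : ‖-v‖ < 1 := by rwa [norm_neg]
  rw [evQ_lgm' h1, evQ_li2 h1, evQ_li2 hn, evQ_integ_geoa h1, evQ_lgp h1, f6_eq,
    g6_inv (mem_W_of_norm hv h1), l2_eq]
  ring

theorem f7_inf : f7 v⁻¹ = (Complex.log (-v) + evQ lgm v) *
    (Complex.log (-v) + evQ lgm v + l2) / 2 := by
  rw [evQ_lgm' h1, f7_eq, g7_inv hv, l2_eq]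

end inf

/-! ### the expansions at `u = 1` -/

section one

variable {t : ℂ} (ht : -t ∈ Complex.slitPlane) (h1 : ‖t‖ < 1)

include ht h1

theorem Lf_one : Lf ((1 + t) / (1 - t)) = -l2 - Complex.log (-t) - evQ lgm t := by
  rw [evQ_lgm' h1, l2_eq]; exact Lg_uc ht

theorem Li_one : Li ((1 + t) / (1 - t)) = (Real.pi:ℂ) ^ 2 / 6
    - (l2 + Complex.log (-t)) * (evQ lgp t + evQ lgm t) + evQ li2 t - evQ li2 (-t)
    - 2 * evQ (integ (geo2 * lgm)) t := by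
  have hn : ‖-t‖ < 1 := by rwa [norm_neg]
  rw [evQ_lgm' h1, evQ_li2 h1, evQ_li2 hn, evQ_integ_geo2 h1, evQ_lgp h1, Li_eq, l2_eq]
  have := Li2_uc (mem_W_of_norm ht h1)
  rw [uc] at this
  rw [this]
  ring

theorem f6_one : f6 ((1 + t) / (1 - t)) = (Real.pi:ℂ) ^ 2 / 12
    - l2 / 2 * (Complex.log (-t) + evQ lgm t) - Complex.log (-t) * evQ lgm t + evQ li2 t
    - evQ lgm t ^ 2 / 2 := by
  rw [evQ_lgm' h1, evQ_li2 h1, l2_eq, f6_eq]
  exact g6_uc ht

theorem f7_one : f7 ((1 + t) / (1 - t)) = (Complex.log (-t) + evQ lgm t) ^ 2 / 2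
    + l2 / 2 * (Complex.log (-t) + evQ lgm t) := by
  rw [evQ_lgm' h1, l2_eq, f7_eq]
  have := g7_uc ht
  rw [uc] at this
  rw [this]
  ring

end one

end Vale.Agent.P030.H954
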