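import Vale.Agent.P030.AR.Vec
import Vale.Agent.P030.H954.Expand
import Vale.Agent.P030.H405.PSer

/-!
# P030: the polylogarithmic coordinates (components `0 .. 5`) of the eight global flat vectors

`PV` : the vectors `e, a, c, d, g, h, A0, A3` of AR/Vec.lean with their components 6, 7 replaced
by `0`; the expansions `gl0 .. gl3` at the four cusps, components `j < 6`.
-/

open Set Filter Topology Metric PowerSeries

noncomputable section

namespace Vale.Agent.P030.H954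

open Vale.Agent.P030.T Vale.Agent.P030.H462

/-- the table of the components `0 .. 5` -/
def tab (a b c d e f g h k : ℂ) : Fin 8 → Fin 8 → ℂ :=
  ![![1, H405.l2, a, b, c, d, 0, 0], ![0, 1, 0, 0, e, f, 0, 0], ![0, 0, 1, g, h, k, 0, 0],
    AR.dv, AR.gv, AR.hv, 0, 0]

/-- components `0 .. 5` of the eight global flat vectors -/
def PV (i : Fin 8) (u : ℂ) : Fin 8 → ℂ :=
  tab (H405.Lf u) (H405.Li u) (H405.f6 u) (H405.f7 u) (Complex.log (1 + u) + H405.Lf u / 2)
    (H405.Lf u / 2) (Complex.log u) (Complex.log (1 + u)) (H405.Lf u) i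

/-! ### logarithms -/

theorem log_mul_ud {x y : ℂ} (hx : 0 < x.im) (hy : y.im < 0) :
    Complex.log (x * y) = Complex.log x + Complex.log y := by
  have hx0 : x ≠ 0 := by rintro rfl; simp at hx
  have hy0 : y ≠ 0 := by rintro rfl; simp at hy
  have h1 := Complex.arg_neg_iff.2 hy
  have h2 := (Complex.neg_pi_lt_arg y)
  have h3 := Complex.arg_le_pi x
  have h4 : 0 ≤ Complex.arg x := Complex.arg_nonneg_iff.2 hx.le
  exact Complex.log_mul hx0 hy0 (by rw [mem_Ioc]; constructor <;> linarith)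

theorem log_neg_up {x : ℂ} (hx : 0 < x.im) :
    Complex.log (-x) = Complex.log x - Real.pi * Complex.I := by
  rw [Complex.log, Complex.log, norm_neg, Complex.arg_neg_eq_arg_sub_pi_of_im_pos hx]
  push_cast
  ring

theorem log_neg_down {x : ℂ} (hx : x.im < 0) :
    Complex.log (-x) = Complex.log x + Real.pi * Complex.I := by
  have h := log_neg_up (x := -x) (by rw [Complex.neg_im]; linarith)
  rw [neg_neg] at h
  rw [h]; ring

/-! ### evaluations -/

theorem algQ : (algebraMap ℚ ℂ) = Rat.castHom ℂ := RingHom.ext_rat _ _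

theorem evq_eq (f : ℚ⟦X⟧) (t : ℂ) : AR.evq f t = evQ f t := by
  rw [AR.evq, evQ, algQ]

theorem evq_zero (t : ℂ) : AR.evq 0 t = 0 := ev_zero t
theorem evq_one (t : ℂ) : AR.evq 1 t = 1 := ev_one t
theorem evq_neg (f : ℚ⟦X⟧) (t : ℂ) : AR.evq (-f) t = -AR.evq f t := ev_neg f t
theorem evq_C (q : ℚ) (t : ℂ) : AR.evq (C q) t = q := ev_C q t

section

variable {t : ℂ} (h1 : ‖t‖ < 1)

include h1

theorem evq_add {f g : ℚ⟦X⟧} (hf : PQ f) (hg : PQ g) :
    AR.evq (f + g) t = AR.evq f t + AR.evq g t := by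
  rw [evq_eq, evq_eq, evq_eq]; exact ev_add hf hg h1

theorem evq_sub {f g : ℚ⟦X⟧} (hf : PQ f) (hg : PQ g) :
    AR.evq (f - g) t = AR.evq f t - AR.evq g t := by
  rw [evq_eq, evq_eq, evq_eq]; exact ev_sub hf hg h1

theorem evq_mul {f g : ℚ⟦X⟧} (hf : PQ f) (hg : PQ g) :
    AR.evq (f * g) t = AR.evq f t * AR.evq g t := by
  rw [evq_eq, evq_eq, evq_eq]; exact ev_mul hf hg h1

theorem evq_sc {f : ℚ⟦X⟧} (hf : PQ f) (q : ℚ) : AR.evq (sc q f) t = q * AR.evq f t := by
  rw [sc, evq_mul h1 (PG.const q) hf, evq_C]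

theorem evq_lgm : AR.evq lgm t = H405.Lf t := by
  rw [evq_eq]; exact evQ_lgm h1

theorem evq_lgp : AR.evq lgp t = Complex.log (1 + t) := by
  rw [evq_eq]; exact evQ_lgp h1

theorem evq_li2 : AR.evq li2 t = H405.Li t := by
  rw [evq_eq, evQ_li2 h1, Li_eq]

theorem evq_li2m : AR.evq AR.li2m t = H405.Li (-t) := by
  have hn : ‖-t‖ < 1 := by rwa [norm_neg]
  rw [evq_eq, Li_eq, ← evQ_li2 hn]
  refine tsum_congr fun n => ?_
  simp only [AR.li2m, li2, coeff_mk]
  split_ifs with h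
  · simp
  · simp only [eq_ratCast]
    push_cast
    rw [neg_pow t]
    ring

theorem evq_lgm2 : AR.evq (sc (1 / 2) (lgm ^ 2)) t = H405.Lf t ^ 2 / 2 := by
  rw [evq_sc h1 (pq_lgm.pow 2), pow_two, evq_mul h1 pq_lgm pq_lgm, evq_lgm h1]
  push_cast; ring

theorem evq_hlgm : AR.evq (sc (1 / 2) lgm) t = H405.Lf t / 2 := by
  rw [evq_sc h1 pq_lgm, evq_lgm h1]
  push_cast; ring

theorem evq_hlgmp : AR.evq (sc (1 / 2) lgm + lgp) t = H405.Lf t / 2 + Complex.log (1 + t) := by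
  rw [evq_add h1 (pq_sc pq_lgm _) pq_lgp, evq_hlgm h1, evq_lgp h1]

theorem evq_pm : AR.evq (lgp + lgm) t = Complex.log (1 + t) + H405.Lf t := by
  rw [evq_add h1 pq_lgp pq_lgm, evq_lgm h1, evq_lgp h1]

omit h1 in
theorem pq_li2m : PQ AR.li2m := pq_of_le_one fun n => by
  simp only [AR.li2m, coeff_mk]
  split_ifs with h
  · simp
  · rw [abs_div, abs_pow, abs_neg, abs_one, one_pow, abs_of_nonneg (by positivity : (0:ℚ) ≤ (n:ℚ) ^ 2)]
    rw [div_le_one (by positivity)]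
    have : (1:ℚ) ≤ n := by exact_mod_cast Nat.one_le_iff_ne_zero.2 h
    nlinarith

theorem evq_geoa' : AR.evq (integ (geoa * lgm)) t =
    H405.Jf t - H405.l2 * Complex.log (1 + t) := by
  rw [evq_eq, evQ_integ_geoa h1, Jf_eq]; rfl

theorem evq_geo2' : AR.evq (integ (geo2 * lgm)) t =
    (H405.Lf t ^ 2 / 2 + H405.Jf t - H405.l2 * Complex.log (1 + t)) / 2 := by
  rw [evq_eq, evQ_integ_geo2 h1, Jf_eq]; rfl

theorem evq_w3 : AR.evq (sc 2 (integ (geo2 * lgm))) t =
    H405.Lf t ^ 2 / 2 + H405.Jf t - H405.l2 * Complex.log (1 + t) := by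
  rw [evq_sc h1 (pq_integ (pq_geo2.mul pq_lgm)), evq_geo2' h1]
  push_cast; ring

theorem evq_w4 : AR.evq (-li2 - sc (1 / 2) (lgm ^ 2)) t = -H405.Li t - H405.Lf t ^ 2 / 2 := by
  rw [evq_sub h1 pq_li2.neg (pq_sc (pq_lgm.pow 2) _), evq_neg, evq_li2 h1, evq_lgm2 h1]

theorem evq_x4 : AR.evq (li2 - sc (1 / 2) (lgm ^ 2)) t = H405.Li t - H405.Lf t ^ 2 / 2 := by
  rw [evq_sub h1 pq_li2 (pq_sc (pq_lgm.pow 2) _), evq_li2 h1, evq_lgm2 h1]

theorem evq_v4 : AR.evq (AR.li2m - li2 + integ (geoa * lgm)) t =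
    H405.Li (-t) - H405.Li t + (H405.Jf t - H405.l2 * Complex.log (1 + t)) := by
  rw [evq_add h1 (pq_li2m.sub pq_li2) (pq_integ (pq_geoa.mul pq_lgm)),
    evq_sub h1 pq_li2m pq_li2, evq_li2 h1, evq_li2m h1, evq_geoa' h1]

theorem evq_x3 : AR.evq (li2 - AR.li2m - sc 2 (integ (geo2 * lgm))) t =
    H405.Li t - H405.Li (-t)
      - (H405.Lf t ^ 2 / 2 + H405.Jf t - H405.l2 * Complex.log (1 + t)) := by
  rw [evq_sub h1 (pq_li2.sub pq_li2m) (pq_sc (pq_integ (pq_geo2.mul pq_lgm)) _),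
    evq_sub h1 pq_li2 pq_li2m, evq_li2 h1, evq_li2m h1, evq_w3 h1]

end

/-! ### holomorphy on the upper half plane -/

theorem up_mem_Om {u : ℂ} (hu : u ∈ AR.Up) : u ∈ H405.Om := H405.mem_Om_of_im (ne_of_gt hu)

theorem isOpen_Up : IsOpen AR.Up := isOpen_lt continuous_const Complex.continuous_im

theorem Up_sub_Om : AR.Up ⊆ H405.Om := fun _ hu => up_mem_Om hu

theorem diff_log_Up : DifferentiableOn ℂ Complex.log AR.Up := fun u hu =>
  (Complex.differentiableAt_log (Complex.mem_slitPlane_iff.2 (Or.inr (ne_of_gt hu)))).differentiableWithinAt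

theorem diff_lp_Up : DifferentiableOn ℂ (fun u : ℂ => Complex.log (1 + u)) AR.Up := fun u hu => by
  refine DifferentiableAt.differentiableWithinAt ?_
  refine DifferentiableAt.clog (by fun_prop) (Complex.mem_slitPlane_iff.2 (Or.inr ?_))
  rw [Complex.add_im, Complex.one_im, zero_add]
  exact ne_of_gt hu

theorem polyV_hol (i j : Fin 8) : DifferentiableOn ℂ (fun u => PV i u j) AR.Up := by
  have hL := H405.differentiableOn_Lf.mono Up_sub_Om
  have hLi := H405.differentiableOn_Li.mono Up_sub_Om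
  have h6 := H405.differentiableOn_f6.mono Up_sub_Om
  have h7 := H405.differentiableOn_f7.mono Up_sub_Om
  have hlp := diff_lp_Up
  have hl := diff_log_Up
  have hc : ∀ c : ℂ, DifferentiableOn ℂ (fun _ : ℂ => c) AR.Up := fun c => differentiableOn_const c
  fin_cases i <;> fin_cases j <;>
    first
      | exact hc _
      | exact hL
      | exact hLi
      | exact h6
      | exact h7
      | exact hl
      | exact hlp
      | exact hlp.add (hL.div_const 2)
      | exact hL.div_const 2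

/-! ### the coordinates of the germs -/

theorem gl0_low {T t : ℂ} (h1 : ‖t‖ < 1) (i j : Fin 8) (hj : (j:ℕ) < 6) : AR.gl0 T t i j =
    tab (H405.Lf t) (H405.Li t) (H405.f6 t) (H405.f7 t) (Complex.log (1 + t) + H405.Lf t / 2)
      (H405.Lf t / 2) T (Complex.log (1 + t)) (H405.Lf t) i j := by
  have hl : AR.l2 = H405.l2 := rfl
  fin_cases i <;> fin_cases j <;>
    first
      | exact absurd hj (by decide)
      | simp [-one_div, AR.gl0, AR.tupC, tup0, tup1, AR.evt, AR.zL0, AR.zM0, AR.dv, AR.gv, AR.hv,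
          evq_zero, evq_one, evq_lgm h1, evq_lgp h1, evq_li2 h1, evq_lgm2 h1, evq_hlgm h1,
          evq_hlgmp h1, evq_geoa' h1, hl, tab]
  · rw [H405.f6]; ring
  · rw [H405.f7]; ring
  · ring

theorem gl1_low {T t : ℂ} (h1 : ‖t‖ < 1) (i j : Fin 8) (hj : (j:ℕ) < 6) : AR.gl1 T t i j =
    tab (-H405.Lf t - H405.l2)
        (-(H405.Lf t ^ 2 / 2 + H405.Jf t - H405.l2 * Complex.log (1 + t))
          - H405.l2 * (Complex.log (1 + t) + H405.Lf t) - Real.pi ^ 2 / 12)
        (-H405.Li t - H405.Lf t ^ 2 / 2 - H405.l2 * (H405.Lf t / 2) - Real.pi ^ 2 / 12)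
        (H405.Lf t ^ 2 / 2 + H405.l2 * (H405.Lf t / 2))
        (T + H405.Lf t / 2 + H405.l2 / 2) (-H405.Lf t / 2 - H405.l2 / 2)
        (Complex.log (1 + t) + H405.Lf t + Real.pi * Complex.I)
        (T + H405.Lf t + H405.l2) (-H405.Lf t - H405.l2) i j := by
  have hl : AR.l2 = H405.l2 := rfl
  have hp : AR.pc = (Real.pi : ℂ) := rfl
  fin_cases i <;> fin_cases j <;>
    first
      | exact absurd hj (by decide)
      | simp [-one_div, -neg_add_rev, AR.gl1, AR.tupC, tup0, tup1, AR.evt, AR.wMv, AR.wLv, AR.wL0,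
          AR.wM0, AR.dv, AR.gv, AR.hv, evq_zero, evq_one, evq_neg, evq_C, evq_lgm h1, evq_lgm2 h1,
          evq_hlgm h1, evq_pm h1, evq_w3 h1, evq_w4 h1, hl, hp, tab]
  all_goals ring

theorem gl2_low {T t : ℂ} (h1 : ‖t‖ < 1) (i j : Fin 8) (hj : (j:ℕ) < 6) : AR.gl2 T t i j =
    tab (T + H405.Lf t) (-H405.Li t - T ^ 2 / 2 - Real.pi ^ 2 / 6)
        (H405.Li (-t) - H405.Li t + (H405.Jf t - H405.l2 * Complex.log (1 + t))
          + T * Complex.log (1 + t) - T ^ 2 / 2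
          + H405.l2 * (H405.Lf t / 2 + Complex.log (1 + t) - T / 2) - Real.pi ^ 2 / 4)
        (H405.Lf t ^ 2 / 2 + T * H405.Lf t + T ^ 2 / 2 + H405.l2 * (H405.Lf t / 2 + T / 2))
        (H405.Lf t / 2 + Complex.log (1 + t) - T / 2 + Real.pi * Complex.I)
        (H405.Lf t / 2 + T / 2)
        (-T + Real.pi * Complex.I) (Complex.log (1 + t) - T + Real.pi * Complex.I)
        (H405.Lf t + T) i j := by
  have hl : AR.l2 = H405.l2 := rfl
  have hp : AR.pc = (Real.pi : ℂ) := rfl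
  fin_cases i <;> fin_cases j <;>
    first
      | exact absurd hj (by decide)
      | simp [-one_div, -neg_add_rev, AR.gl2, AR.tupC, tup0, tup1, AR.evt, AR.vEv, AR.vMv, AR.A1v,
          AR.A2v, AR.vE0, AR.vM0, AR.vO0, AR.dv, AR.gv, AR.hv,
          evq_zero, evq_one, evq_neg, evq_lgm h1, evq_lgp h1, evq_li2 h1, evq_lgm2 h1, evq_hlgm h1,
          evq_hlgmp h1, evq_v4 h1, hl, hp, tab]
  all_goals ring

theorem gl3_low {T t : ℂ} (h1 : ‖t‖ < 1) (i j : Fin 8) (hj : (j:ℕ) < 6) : AR.gl3 T t i j =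
    tab (-H405.Lf t - T - H405.l2)
        (H405.Li t - H405.Li (-t)
          - (H405.Lf t ^ 2 / 2 + H405.Jf t - H405.l2 * Complex.log (1 + t))
          - T * (Complex.log (1 + t) + H405.Lf t) - H405.l2 * (Complex.log (1 + t) + H405.Lf t)
          + Real.pi ^ 2 / 6)
        (H405.Li t - H405.Lf t ^ 2 / 2 - T * H405.Lf t + H405.l2 * (H405.Lf t / 2 - T / 2)
          - H405.l2 * H405.Lf t + Real.pi ^ 2 / 12)
        (H405.Lf t ^ 2 / 2 + T * H405.Lf t + T ^ 2 / 2 + H405.l2 * (-H405.Lf t / 2 - T / 2)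
          + H405.l2 * (H405.Lf t + T))
        (H405.Lf t / 2 - T / 2 + H405.l2 / 2) (-H405.Lf t / 2 - T / 2 - H405.l2 / 2)
        (Complex.log (1 + t) + H405.Lf t) (H405.Lf t + H405.l2)
        (-H405.Lf t - T - H405.l2) i j := by
  have hl : AR.l2 = H405.l2 := rfl
  have hp : AR.pc = (Real.pi : ℂ) := rfl
  fin_cases i <;> fin_cases j <;>
    first
      | exact absurd hj (by decide)
      | simp [-one_div, -neg_add_rev, AR.gl3, AR.tupC, tup0, tup1, AR.evt, AR.k3v, AR.xMv, AR.x1v,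
          AR.xEv, AR.xE0, AR.xM0, AR.xO0, AR.dv, AR.gv, AR.hv,
          evq_zero, evq_one, evq_neg, evq_C, evq_lgm h1, evq_lgm2 h1, evq_hlgm h1,
          evq_pm h1, evq_x3 h1, evq_x4 h1, hl, hp, tab]
  all_goals ring

end Vale.Agent.P030.H954
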